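import Vale.Agent.P097.H560.Inst

/-!
# P097 : case [c] : the world in straight coordinates at ANY real centre (label or not)
-/

set_option linter.all false

open Complex Metric Filter Topology Set
open scoped ComplexConjugate

namespace Vale.Agent.P097.H560

open Vale.Agent.P097.H85 Vale.Agent.P097.H929 Vale.Agent.P097.TC Vale.Agent.P097.H226.W

/-- straight coordinates at the real centre `v`, real part `x`, unit = `ρ` -/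
noncomputable def Sx (Ψ : ℂ → ℂ) (x v ρ : ℝ) (z : ℂ × ℂ) : ℂ × ℂ :=
  (((x : ℂ) + (ρ : ℂ) * z.1 + Ψ ((v : ℂ) + (ρ : ℂ) * z.2)), (v : ℂ) + (ρ : ℂ) * z.2)

theorem Sm_eq (P : ℝ → ℂ) (Ψ : ℂ → ℂ) (y u ρ : ℝ) : Sm P Ψ y u ρ = Sx Ψ (y - (P u).re) u ρ := rfl

/-- **the straight coordinates at any real centre stay in the domains** -/
theorem Sx_mem {Mj Mk : Set (ℂ × ℂ)} {b m : ℝ} {Ψ : ℂ → ℂ} {A : Set ℝ} {P : ℝ → ℂ} {c k : ℝ → ℝ}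
    (hMk : RH b Mk) (hj : CmpU Mj b m Ψ A P c k) (hk : CmpU Mk b m Ψ A P c k) (hbm : b < m)
    {y₀ u₀ s' : ℝ} (hu₀ : u₀ ∈ A) (hR : RegB Mk b A P c y₀ u₀ s') {γ : ℝ} (hγ : 0 < γ) :
    ∃ d > 0, ∃ ρ₀ > 0, ∀ v : ℝ, |v - u₀| < d → ∀ x : ℝ, |x - (y₀ - (P u₀).re)| < d →
      ∀ ρ : ℝ, 0 < ρ → ρ ≤ ρ₀ →
      (∀ z ∈ Bx 1, 0 < z.2.im → DifferentiableAt ℂ (Sx Ψ x v ρ) z ∧ (Sx Ψ x v ρ z).2.im = ρ * z.2.im ∧
        b < (Sx Ψ x v ρ z).1.im) ∧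
      (∀ δ : ℝ, δ ≤ s' - k u₀ - γ → ∀ z ∈ Bx 1 ∩ Wd δ, Sx Ψ x v ρ z ∈ Mk) ∧
      ∀ z ∈ Bx 1 ∩ Qu, Sx Ψ x v ρ z ∈ Mj ∩ Mk := by
  obtain ⟨d, hd, h1⟩ := wide_unif hMk hk hbm hR hγ
  obtain ⟨ρ₁, hρ₁, h2⟩ := hj.cmp 1 one_pos 1 one_pos
  obtain ⟨ρ₂, hρ₂, h3⟩ := hk.cmp 1 one_pos 1 one_pos
  obtain ⟨r, hr, g1, g2, g3, g4⟩ : ∃ r > 0, 2 * r < ρ₁ ∧ 2 * r < ρ₂ ∧ 2 * r < d ∧ r < m - b := by
    have : 0 < m - b := by linarith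
    refine ⟨min (min (ρ₁ / 4) (ρ₂ / 4)) (min (d / 4) ((m - b) / 2)), by positivity, ?_, ?_, ?_, ?_⟩
    · have := (min_le_left (min (ρ₁ / 4) (ρ₂ / 4)) (min (d / 4) ((m - b) / 2))).trans (min_le_left _ _)
      linarith
    · have := (min_le_left (min (ρ₁ / 4) (ρ₂ / 4)) (min (d / 4) ((m - b) / 2))).trans (min_le_right _ _)
      linarith
    · have := (min_le_right (min (ρ₁ / 4) (ρ₂ / 4)) (min (d / 4) ((m - b) / 2))).trans (min_le_left _ _)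
      linarith
    · have := (min_le_right (min (ρ₁ / 4) (ρ₂ / 4)) (min (d / 4) ((m - b) / 2))).trans (min_le_right _ _)
      linarith
  refine ⟨r, hr, r, hr, ?_⟩
  intro v hvd x hxd ρ hρ hρρ
  have e2 : ∀ z : ℂ × ℂ, ((v : ℂ) + (ρ : ℂ) * z.2).re = v + ρ * z.2.re := fun z => by simp
  have e3 : ∀ z : ℂ × ℂ, ((v : ℂ) + (ρ : ℂ) * z.2).im = ρ * z.2.im := fun z => by simp
  have hlt : ∀ {x : ℝ}, |x| < 1 → ρ * |x| < r := by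
    intro x hx
    have : ρ * |x| < ρ * 1 := mul_lt_mul_of_pos_left hx hρ
    linarith
  have b1 : ∀ z ∈ Bx 1, |((v : ℂ) + (ρ : ℂ) * z.2).re - u₀| < 2 * r := by
    intro z hz
    rw [e2]
    have h4 := hlt hz.2.2.1
    have h5 : v + ρ * z.2.re - u₀ = ρ * z.2.re + (v - u₀) := by ring
    rw [h5]
    have h6 := abs_add_le (ρ * z.2.re) (v - u₀)
    rw [abs_mul, abs_of_pos hρ] at h6
    linarith
  have b2 : ∀ z : ℂ × ℂ, 0 < z.2.im → 0 < ((v : ℂ) + (ρ : ℂ) * z.2).im := by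
    intro z hz
    rw [e3]; positivity
  have b3 : ∀ z ∈ Bx 1, ((v : ℂ) + (ρ : ℂ) * z.2).im < 2 * r := by
    intro z hz
    rw [e3]
    have h4 := hlt hz.2.2.2
    have h5 := le_abs_self z.2.im
    have h6 : ρ * z.2.im ≤ ρ * |z.2.im| := mul_le_mul_of_nonneg_left h5 hρ.le
    linarith
  have t1 : ∀ z : ℂ × ℂ, (Sx Ψ x v ρ z).1.im = ρ * z.1.im + (Ψ ((v : ℂ) + (ρ : ℂ) * z.2)).im := by
    intro z
    show (((x : ℂ) + (ρ : ℂ) * z.1 + Ψ ((v : ℂ) + (ρ : ℂ) * z.2))).im = _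
    rw [add_im, add_im, ofReal_im, zero_add]
    simp
  have t2 : ∀ z : ℂ × ℂ, ((Sx Ψ x v ρ z).1 - Ψ ((v : ℂ) + (ρ : ℂ) * z.2)).re = x + ρ * z.1.re := by
    intro z
    show (((x : ℂ) + (ρ : ℂ) * z.1 + Ψ ((v : ℂ) + (ρ : ℂ) * z.2)) -
      Ψ ((v : ℂ) + (ρ : ℂ) * z.2)).re = _
    rw [add_sub_cancel_right, add_re, ofReal_re]
    simp
  have t3 : ∀ z ∈ Bx 1, 0 < z.2.im → b < (Sx Ψ x v ρ z).1.im := by
    intro z hz hz0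
    rw [t1]
    have h4 := (h3 u₀ hu₀).bdd _ ((b1 z hz).trans g2) (b2 z hz0) ((b3 z hz).trans g2)
    have h5 := hlt hz.2.1
    have h6 : ρ * (-|z.1.im|) ≤ ρ * z.1.im := mul_le_mul_of_nonneg_left (neg_abs_le _) hρ.le
    linarith
  refine ⟨?_, ?_, ?_⟩
  · intro z hz hz0
    refine ⟨?_, e3 z, t3 z hz hz0⟩
    have hΨ : DifferentiableAt ℂ Ψ ((v : ℂ) + (ρ : ℂ) * z.2) :=
      ((h3 u₀ hu₀).hol).differentiableAt ((isOpen_box u₀ ρ₂).mem_nhds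
        ⟨(b1 z hz).trans g2, b2 z hz0, (b3 z hz).trans g2⟩)
    have hl : DifferentiableAt ℂ (fun z : ℂ × ℂ => (v : ℂ) + (ρ : ℂ) * z.2) z := by fun_prop
    have h5 : DifferentiableAt ℂ (fun z : ℂ × ℂ => Ψ ((v : ℂ) + (ρ : ℂ) * z.2)) z :=
      DifferentiableAt.comp z (f := fun z : ℂ × ℂ => (v : ℂ) + (ρ : ℂ) * z.2) hΨ hl
    have h6 : DifferentiableAt ℂ (fun z : ℂ × ℂ => (x : ℂ) + (ρ : ℂ) * z.1) z := by
      fun_prop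
    exact (h6.add h5).prodMk hl
  · rintro δ hδ z ⟨hz, hz0, hz1⟩
    apply h1 u₀ hu₀ (by rw [sub_self, abs_zero]; exact hd) y₀ (by rw [sub_self, abs_zero]; exact hd)
    · exact (b1 z hz).trans g3
    · exact b2 z hz0
    · exact (b3 z hz).trans g3
    · show |((Sx Ψ x v ρ z).1 - Ψ ((v : ℂ) + (ρ : ℂ) * z.2)).re - (y₀ - (P u₀).re)| < d
      rw [t2]
      have h5 : x + ρ * z.1.re - (y₀ - (P u₀).re) = ρ * z.1.re + (x - (y₀ - (P u₀).re)) := by ring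
      rw [h5]
      have h6 := abs_add_le (ρ * z.1.re) (x - (y₀ - (P u₀).re))
      rw [abs_mul, abs_of_pos hρ] at h6
      have h7 := hlt hz.1
      linarith
    · exact t3 z hz hz0
    · show (Sx Ψ x v ρ z).1.im < (Ψ ((v : ℂ) + (ρ : ℂ) * z.2)).im +
        (s' - k u₀ - γ) * ((v : ℂ) + (ρ : ℂ) * z.2).im
      rw [t1, e3]
      have h4 : δ * z.2.im ≤ (s' - k u₀ - γ) * z.2.im := mul_le_mul_of_nonneg_right hδ hz0.le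
      have h5 : ρ * z.1.im < ρ * ((s' - k u₀ - γ) * z.2.im) :=
        mul_lt_mul_of_pos_left (lt_of_lt_of_le hz1 h4) hρ
      have h6 : ρ * ((s' - k u₀ - γ) * z.2.im) = (s' - k u₀ - γ) * (ρ * z.2.im) := by ring
      linarith
  · rintro z ⟨hz, hz1, hz0⟩
    have h7 : (Sx Ψ x v ρ z).1.im < (Ψ ((v : ℂ) + (ρ : ℂ) * z.2)).im := by
      rw [t1]
      have : ρ * z.1.im < 0 := mul_neg_of_pos_of_neg hρ hz1
      linarith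
    exact ⟨(h2 u₀ hu₀).base _ _ ((b1 z hz).trans g1) (b2 z hz0) ((b3 z hz).trans g1)
        (t3 z hz hz0) h7,
      (h3 u₀ hu₀).base _ _ ((b1 z hz).trans g2) (b2 z hz0) ((b3 z hz).trans g2)
        (t3 z hz hz0) h7⟩

/-- **the world in straight coordinates at any real centre** -/
theorem sw_gen {Λ H : ℝ} {F q : ℂ → ℂ} {Mj Mk : Set (ℂ × ℂ)} {b m : ℝ} {Ψ : ℂ → ℂ} {A : Set ℝ}
    {P : ℝ → ℂ} {c k : ℝ → ℝ} {al p th : ℂ × ℂ → ℂ} (cv : Cv Λ H F q) (gr : Grw H F q)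
    (hMj : IsOpen Mj) (hMk : RH b Mk) (hj : CmpU Mj b m Ψ A P c k) (hk : CmpU Mk b m Ψ A P c k)
    (hbm : b < m) {y₀ u₀ s' : ℝ} (hu₀ : u₀ ∈ A) (hR : RegB Mk b A P c y₀ u₀ s')
    (dal : DifferentiableOn ℂ al Mk) (dp : DifferentiableOn ℂ p Mk)
    (dth : DifferentiableOn ℂ th (Mj ∩ Mk ∩ {z | z.2 ≠ 0}))
    (mem : ∀ z ∈ Mj ∩ Mk ∩ {z | z.2 ≠ 0}, th z ∈ Sb H)
    (inc : ∀ z ∈ Mj ∩ Mk ∩ {z | z.2 ≠ 0}, Mi F q (al z) (p z) (th z) = 0)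
    (smp : ∀ z ∈ Mj ∩ Mk ∩ {z | z.2 ≠ 0}, deriv (Mi F q (al z) (p z)) (th z) ≠ 0)
    {γ : ℝ} (hγ : 0 < γ) :
    ∃ d > 0, ∃ ρ₀ > 0, ∀ v : ℝ, |v - u₀| < d → ∀ x : ℝ, |x - (y₀ - (P u₀).re)| < d →
      ∀ ρ : ℝ, 0 < ρ → ρ ≤ ρ₀ → ∀ δ : ℝ, 0 < δ → δ ≤ s' - k u₀ - γ →
      SW Λ H F q δ 1 (al ∘ Sx Ψ x v ρ) (p ∘ Sx Ψ x v ρ) (th ∘ Sx Ψ x v ρ) := by
  obtain ⟨d, hd, ρ₀, hρ₀, h⟩ := Sx_mem hMk hj hk hbm hu₀ hR hγ
  refine ⟨d, hd, ρ₀, hρ₀, ?_⟩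
  intro v hvd x hxd ρ hρ hρρ δ hδ hδs
  obtain ⟨h1, h2, h3⟩ := h v hvd x hxd ρ hρ hρρ
  have h4 : ∀ z ∈ Bx 1 ∩ Qu, Sx Ψ x v ρ z ∈ Mj ∩ Mk ∩ {z | z.2 ≠ 0} := by
    rintro z ⟨hz, hz1, hz0⟩
    refine ⟨h3 z ⟨hz, hz1, hz0⟩, ?_⟩
    intro hh
    have h5 := (h1 z hz hz0).2.1
    rw [hh, zero_im] at h5
    have := mul_pos hρ hz0
    linarith
  have hO : IsOpen (Mj ∩ Mk ∩ {z : ℂ × ℂ | z.2 ≠ 0}) :=
    (hMj.inter hMk.dn.op).inter (isOpen_ne.preimage continuous_snd)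
  have hQ : Bx 1 ∩ Qu ⊆ Bx 1 ∩ Wd δ := by
    rintro z ⟨hz, hz1, hz0⟩
    refine ⟨hz, hz0, ?_⟩
    have := mul_pos hδ hz0
    linarith
  have hal : DifferentiableOn ℂ (al ∘ Sx Ψ x v ρ) (Bx 1 ∩ Wd δ) := by
    rintro z ⟨hz, hz0, hz1⟩
    exact (DifferentiableAt.comp z (dal.differentiableAt (hMk.dn.op.mem_nhds
      (h2 δ hδs z ⟨hz, hz0, hz1⟩))) (h1 z hz hz0).1).differentiableWithinAt
  have hp : DifferentiableOn ℂ (p ∘ Sx Ψ x v ρ) (Bx 1 ∩ Wd δ) := by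
    rintro z ⟨hz, hz0, hz1⟩
    exact (DifferentiableAt.comp z (dp.differentiableAt (hMk.dn.op.mem_nhds
      (h2 δ hδs z ⟨hz, hz0, hz1⟩))) (h1 z hz hz0).1).differentiableWithinAt
  refine ⟨⟨cv, gr, hal.mono hQ, hp.mono hQ, ?_, fun z hz => mem _ (h4 z hz),
    fun z hz => inc _ (h4 z hz), fun z hz => smp _ (h4 z hz)⟩, hδ, hal, hp⟩
  rintro z ⟨hz, hz1, hz0⟩
  exact (DifferentiableAt.comp z (dth.differentiableAt (hO.mem_nhds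
    (h4 z ⟨hz, hz1, hz0⟩))) (h1 z hz hz0).1).differentiableWithinAt

end Vale.Agent.P097.H560
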