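import Vale.Agent.P097.H560.Back

/-!
# P097 : case [c] : straight coordinates, change of centre and scale, and the inverse of `Zt`
-/

set_option linter.all false

open Complex Metric Filter Topology Set
open scoped ComplexConjugate

namespace Vale.Agent.P097.H560

open Vale.Agent.P097.H85 Vale.Agent.P097.H929 Vale.Agent.P097.TC Vale.Agent.P097.H226.W

/-- change of centre and scale -/
theorem Sx_shift (Ψ : ℂ → ℂ) (x v S a e r : ℝ) (z : ℂ × ℂ) :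
    Sx Ψ x v S ((a : ℂ) + (r : ℂ) * z.1, (e : ℂ) + (r : ℂ) * z.2) =
      Sx Ψ (x + S * a) (v + S * e) (S * r) z := by
  have h2 : (v : ℂ) + (S : ℂ) * ((e : ℂ) + (r : ℂ) * z.2) =
      ((v + S * e : ℝ) : ℂ) + ((S * r : ℝ) : ℂ) * z.2 := by
    push_cast; ring
  show (((x : ℂ) + (S : ℂ) * ((a : ℂ) + (r : ℂ) * z.1) +
    Ψ ((v : ℂ) + (S : ℂ) * ((e : ℂ) + (r : ℂ) * z.2))), (v : ℂ) + (S : ℂ) * ((e : ℂ) + (r : ℂ) * z.2)) =
    ((((x + S * a : ℝ) : ℂ) + ((S * r : ℝ) : ℂ) * z.1 +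
      Ψ (((v + S * e : ℝ) : ℂ) + ((S * r : ℝ) : ℂ) * z.2)),
      ((v + S * e : ℝ) : ℂ) + ((S * r : ℝ) : ℂ) * z.2)
  rw [h2]
  refine Prod.ext ?_ rfl
  push_cast
  ring

/-- change of scale -/
theorem Sx_smul (Ψ : ℂ → ℂ) (x v S r : ℝ) (z : ℂ × ℂ) :
    Sx Ψ x v S ((r : ℂ) • z) = Sx Ψ x v (S * r) z := by
  have := Sx_shift Ψ x v S 0 0 r z
  simp only [ofReal_zero, zero_add, mul_zero, add_zero] at this
  exact this

/-- `kpt` as `Sx` at the scale `r` -/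
theorem Sx_Zt' {Ψ : ℂ → ℂ} {R c₀ σ y u r x v : ℝ} (hr : r ≠ 0) (z : ℂ × ℂ) :
    Sx Ψ x v r (Zt Ψ R c₀ σ y u r x v z) = kpt R c₀ σ y u r z := by
  have := Sx_Zt (Ψ := Ψ) (R := R) (c₀ := c₀) (σ := σ) (y := y) (u := u) (x := x) (v := v)
    hr hr z
  rwa [div_self hr, ofReal_one, one_smul] at this

/-- the inverse of `Zt` -/
noncomputable def Zi (Ψ : ℂ → ℂ) (R c₀ σ y u r x v : ℝ) (z : ℂ × ℂ) : ℂ × ℂ :=
  (((Sx Ψ x v r z).1 - y - R * I) / r - (I * c₀ + σ) * (((Sx Ψ x v r z).2 - u) / r),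
    ((Sx Ψ x v r z).2 - u) / r)

theorem kpt_Zi {Ψ : ℂ → ℂ} {R c₀ σ y u r x v : ℝ} (hr : r ≠ 0) (z : ℂ × ℂ) :
    kpt R c₀ σ y u r (Zi Ψ R c₀ σ y u r x v z) = Sx Ψ x v r z := by
  have hr' : (r : ℂ) ≠ 0 := ofReal_ne_zero.2 hr
  have key : ∀ T W : ℂ, kpt R c₀ σ y u r ((T - y - R * I) / r - (I * c₀ + σ) * ((W - u) / r),
      (W - u) / r) = (T, W) := by
    intro T W
    rw [kpt_eq]
    refine Prod.ext ?_ ?_
    · show (y : ℂ) + (R : ℂ) * I + r * ((T - y - R * I) / r - (I * c₀ + σ) * ((W - u) / r) +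
        (I * c₀ + σ) * ((W - u) / r)) = T
      rw [sub_add_cancel]
      field_simp
      ring
    · show (u : ℂ) + r * ((W - u) / r) = W
      field_simp
      ring
  exact key (Sx Ψ x v r z).1 (Sx Ψ x v r z).2

theorem Zi_close {M : Set (ℂ × ℂ)} {b m : ℝ} {Ψ : ℂ → ℂ} {ρ₁ ε c₁ u : ℝ} {P₀ : ℂ} {c k : ℝ}
    (hC : Cmp M b m Ψ u ρ₁ P₀ c k c₁ ε) {c₀ σ y r x v : ℝ} (hr : 0 < r) {z : ℂ × ℂ}
    (h1 : r * |z.2.re| + |u - v| < ρ₁) (h2 : 0 < z.2.im) (h3 : r * z.2.im < ρ₁)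
    (h4 : c₁ * (r * |z.2.re| + |u - v|) ≤ r * z.2.im) (hc₁ : 0 ≤ c₁) (hε : 0 ≤ ε) :
    ‖Zi Ψ P₀.im c₀ σ y u r x v z - Tl (-(σ - k)) z‖ ≤
      (|c₀ - c| + ε) * (‖z.2‖ + |u - v| / r) + |y - P₀.re - x| / r +
        (1 + |σ - k|) * (|u - v| / r) := by
  have hr' : (r : ℂ) ≠ 0 := ofReal_ne_zero.2 hr.ne'
  set W : ℂ := (v : ℂ) + r * z.2 with hW
  have e1 : W.re = v + r * z.2.re := by simp [hW]
  have e2 : W.im = r * z.2.im := by simp [hW]
  have e3 : |W.re - u| ≤ r * |z.2.re| + |u - v| := by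
    rw [e1]
    have : v + r * z.2.re - u = r * z.2.re + (v - u) := by ring
    rw [this]
    refine (abs_add_le _ _).trans ?_
    rw [abs_mul, abs_of_pos hr, abs_sub_comm v u]
  have h5 := hC.nt W (e3.trans_lt h1) (by rw [e2]; positivity) (by rw [e2]; exact h3)
    (by rw [e2]; exact (mul_le_mul_of_nonneg_left e3 hc₁).trans h4)
  have hWu : W - u = r * (z.2 + ((v - u : ℝ) : ℂ) / r) := by
    rw [hW]; push_cast; field_simp; ring
  set E : ℂ := Ψ W - P₀ - (I * c + k) * (W - u) with hE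
  have nvu : ‖((v - u : ℝ) : ℂ) / r‖ = |u - v| / r := by
    rw [norm_div, norm_real, norm_real, Real.norm_eq_abs, Real.norm_of_nonneg hr.le, abs_sub_comm]
  have nW : ‖W - u‖ ≤ r * (‖z.2‖ + |u - v| / r) := by
    rw [hWu, norm_mul, norm_real, Real.norm_of_nonneg hr.le]
    apply mul_le_mul_of_nonneg_left _ hr.le
    refine (norm_add_le _ _).trans ?_
    rw [nvu]
  have hP2 : (P₀.im : ℂ) * I = P₀ - (P₀.re : ℂ) := by
    rw [eq_sub_iff_add_eq, add_comm]; exact Complex.re_add_im P₀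
  have hS1 : (Sx Ψ x v r z).1 = (x : ℂ) + r * z.1 + Ψ W := rfl
  have hS2 : (Sx Ψ x v r z).2 = W := rfl
  have hfst : (Zi Ψ P₀.im c₀ σ y u r x v z - Tl (-(σ - k)) z).1 =
      I * ((c - c₀ : ℝ) : ℂ) * ((W - u) / r) + E / r - ((y - P₀.re - x : ℝ) : ℂ) / r -
        ((σ - k : ℝ) : ℂ) * (((v - u : ℝ) : ℂ) / r) := by
    show (((Sx Ψ x v r z).1 - y - (P₀.im : ℂ) * I) / r -
      (I * c₀ + σ) * (((Sx Ψ x v r z).2 - u) / r)) - (z.1 + ((-(σ - k) : ℝ) : ℂ) * z.2) = _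
    rw [hS1, hS2, hP2, hE]
    have hz2 : z.2 = (W - u) / r - ((v - u : ℝ) : ℂ) / r := by
      rw [hWu]; field_simp; ring
    rw [hz2]
    generalize (W - u) = D
    push_cast
    field_simp
    ring
  have hsnd : (Zi Ψ P₀.im c₀ σ y u r x v z - Tl (-(σ - k)) z).2 = ((v - u : ℝ) : ℂ) / r := by
    show ((Sx Ψ x v r z).2 - u) / r - z.2 = _
    rw [hS2, hWu]
    field_simp
    ring
  have n1 : ‖((y - P₀.re - x : ℝ) : ℂ) / r‖ = |y - P₀.re - x| / r := by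
    rw [norm_div, norm_real, norm_real, Real.norm_eq_abs, Real.norm_of_nonneg hr.le]
  have n0 : ‖(W - u) / r‖ ≤ ‖z.2‖ + |u - v| / r := by
    rw [norm_div, norm_real, Real.norm_of_nonneg hr.le, div_le_iff₀ hr]
    linarith
  have n3 : ‖E / r‖ ≤ ε * (‖z.2‖ + |u - v| / r) := by
    rw [norm_div, norm_real, Real.norm_of_nonneg hr.le, div_le_iff₀ hr]
    have := mul_le_mul_of_nonneg_left nW hε
    nlinarith
  have n4 : ‖I * ((c - c₀ : ℝ) : ℂ) * ((W - u) / r)‖ ≤ |c₀ - c| * (‖z.2‖ + |u - v| / r) := by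
    rw [norm_mul, norm_mul, norm_I, one_mul, norm_real, Real.norm_eq_abs, abs_sub_comm]
    exact mul_le_mul_of_nonneg_left n0 (abs_nonneg _)
  have n5 : ‖((σ - k : ℝ) : ℂ) * (((v - u : ℝ) : ℂ) / r)‖ = |σ - k| * (|u - v| / r) := by
    rw [norm_mul, nvu, norm_real, Real.norm_eq_abs]
  have p1 : 0 ≤ |y - P₀.re - x| / r := by positivity
  have p2 : 0 ≤ |u - v| / r := by positivity
  have p3 : 0 ≤ (|c₀ - c| + ε) * (‖z.2‖ + |u - v| / r) := by positivity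
  have p4 : 0 ≤ |σ - k| * (|u - v| / r) := by positivity
  have d1 : (|c₀ - c| + ε) * (‖z.2‖ + |u - v| / r) =
    |c₀ - c| * (‖z.2‖ + |u - v| / r) + ε * (‖z.2‖ + |u - v| / r) := by ring
  have d2 : (1 + |σ - k|) * (|u - v| / r) = |u - v| / r + |σ - k| * (|u - v| / r) := by ring
  rw [Prod.norm_def, hfst, hsnd, max_le_iff]
  constructor
  · refine (norm_sub_le _ _).trans ?_
    refine (add_le_add_left (norm_sub_le _ _) _).trans ?_
    refine (add_le_add_left (add_le_add_left (norm_add_le _ _) _) _).trans ?_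
    rw [n1, n5]
    linarith
  · rw [nvu]
    linarith

/-- uniform closeness of the inverse on compacts -/
theorem fwd_close {M : Set (ℂ × ℂ)} {b m : ℝ} {Ψ : ℂ → ℂ} {A : Set ℝ} {P : ℝ → ℂ} {c k : ℝ → ℝ}
    (hU : CmpU M b m Ψ A P c k) {u₀ : ℝ} (hu₀ : u₀ ∈ A) (σ : ℝ) {K : Set (ℂ × ℂ)}
    (hK : IsCompact K) (hK0 : ∀ z ∈ K, 0 < z.2.im) {η : ℝ} (hη : 0 < η) :
    ∃ d > 0, ∃ r₀ > 0, ∀ u ∈ A, |u - u₀| < d → ∀ y x v r : ℝ, 0 < r → r < r₀ →
      |y - (P u).re - x| ≤ d * r → |u - v| ≤ d * r → ∀ z ∈ K,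
      kpt (P u).im (c u₀) σ y u r (Zi Ψ (P u).im (c u₀) σ y u r x v z) = Sx Ψ x v r z ∧
      ‖Zi Ψ (P u).im (c u₀) σ y u r x v z - Tl (-(σ - k u₀)) z‖ ≤ η := by
  obtain ⟨-, hc, hk⟩ := cmpU_cont hU
  obtain ⟨B, hB0, hB⟩ : ∃ B > 0, ∀ z ∈ K, ‖z.2‖ ≤ B := by
    obtain ⟨B, hB⟩ := hK.exists_bound_of_continuousOn (f := fun z : ℂ × ℂ => z.2)
      continuous_snd.continuousOn
    exact ⟨|B| + 1, by positivity, fun z hz => by linarith [hB z hz, le_abs_self B]⟩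
  obtain ⟨l, hl0, hl⟩ : ∃ l > 0, ∀ z ∈ K, l ≤ z.2.im := by
    rcases K.eq_empty_or_nonempty with h | h
    · exact ⟨1, one_pos, fun z hz => by rw [h] at hz; exact absurd hz (notMem_empty z)⟩
    · obtain ⟨z₁, hz₁, h1⟩ := hK.exists_isMinOn h
        (f := fun z : ℂ × ℂ => z.2.im) (by fun_prop)
      exact ⟨z₁.2.im, hK0 z₁ hz₁, fun z hz => h1 hz⟩
  have hη8 : 0 < η / (8 * (B + 1)) := by positivity
  obtain ⟨ρ₁, hρ₁, hcmp⟩ := hU.cmp (l / (B + 1)) (by positivity) (η / (8 * (B + 1))) hη8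
  rw [Metric.continuousOn_iff] at hc hk
  obtain ⟨d₁, hd₁, h1⟩ := hc u₀ hu₀ _ hη8
  obtain ⟨d₂, hd₂, h2⟩ := hk u₀ hu₀ _ hη8
  obtain ⟨S, hS⟩ := hU.bd
  have hS0 : 0 ≤ S := (abs_nonneg _).trans (hS u₀ hu₀).2
  obtain ⟨D, hD⟩ : ∃ D : ℝ, D = 1 + (|σ| + S) := ⟨_, rfl⟩
  have hD0 : 0 < D := by rw [hD]; positivity
  obtain ⟨d, hd, q1, q2, q3, q4, q5⟩ : ∃ d > 0, d ≤ d₁ ∧ d ≤ d₂ ∧ d ≤ η / 8 ∧ d ≤ 1 ∧
      D * d ≤ η / 8 := by
    refine ⟨min (min (min d₁ d₂) (min (η / 8) 1)) (η / 8 / D), by positivity, ?_, ?_, ?_, ?_, ?_⟩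
    · exact (min_le_left _ _).trans ((min_le_left _ _).trans (min_le_left _ _))
    · exact (min_le_left _ _).trans ((min_le_left _ _).trans (min_le_right _ _))
    · exact (min_le_left _ _).trans ((min_le_right _ _).trans (min_le_left _ _))
    · exact (min_le_left _ _).trans ((min_le_right _ _).trans (min_le_right _ _))
    · have h3 := mul_le_mul_of_nonneg_left
        (min_le_right (min (min d₁ d₂) (min (η / 8) 1)) (η / 8 / D)) hD0.le
      have h4 : D * (η / 8 / D) = η / 8 := by field_simp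
      linarith
  refine ⟨d, hd, ρ₁ / (B + 1), by positivity, ?_⟩
  intro u hu hud y x v r hr hrr hy hv z hz
  refine ⟨kpt_Zi hr.ne' z, ?_⟩
  have c1 := h1 u hu (by rw [Real.dist_eq]; exact hud.trans_le q1)
  have c2 := h2 u hu (by rw [Real.dist_eq]; exact hud.trans_le q2)
  rw [Real.dist_eq] at c1 c2
  have hzB := hB z hz
  have hzl := hl z hz
  have hre := (Complex.abs_re_le_norm z.2).trans hzB
  have him := (le_abs_self z.2.im).trans ((Complex.abs_im_le_norm z.2).trans hzB)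
  have hrB : r * (B + 1) < ρ₁ := by rwa [lt_div_iff₀ (by positivity)] at hrr
  have k1 : r * |z.2.re| ≤ r * B := mul_le_mul_of_nonneg_left hre hr.le
  have k2 : r * z.2.im ≤ r * B := mul_le_mul_of_nonneg_left him hr.le
  have k4 : |u - v| ≤ r * 1 := by
    have : d * r ≤ 1 * r := mul_le_mul_of_nonneg_right q4 hr.le
    linarith
  have k3 : l / (B + 1) * (r * |z.2.re| + |u - v|) ≤ r * z.2.im := by
    have h3 : l / (B + 1) * (r * |z.2.re| + |u - v|) ≤ l / (B + 1) * (r * (B + 1)) :=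
      mul_le_mul_of_nonneg_left (by linarith) (by positivity)
    have h4 : l / (B + 1) * (r * (B + 1)) = r * l := by field_simp
    have h5 : r * l ≤ r * z.2.im := mul_le_mul_of_nonneg_left hzl hr.le
    linarith
  have key := Zi_close (hcmp u hu) (c₀ := c u₀) (σ := σ) (y := y) (x := x) (v := v) hr
    (z := z) (by linarith) (hl0.trans_le hzl) (by linarith) k3 (by positivity) hη8.le
  have t1 : ‖Tl (-(σ - k u)) z - Tl (-(σ - k u₀)) z‖ ≤ |k u - k u₀| * ‖z.2‖ := by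
    have e : Tl (-(σ - k u)) z - Tl (-(σ - k u₀)) z = (((k u - k u₀ : ℝ) : ℂ) * z.2, 0) := by
      unfold Tl
      ext
      · simp only [Prod.fst_sub]
        push_cast
        ring
      · simp
    rw [e, Prod.norm_def, norm_zero, max_eq_left (norm_nonneg _), norm_mul, norm_real,
      Real.norm_eq_abs]
  have t2 : ‖Zi Ψ (P u).im (c u₀) σ y u r x v z - Tl (-(σ - k u₀)) z‖ ≤
      ‖Zi Ψ (P u).im (c u₀) σ y u r x v z - Tl (-(σ - k u)) z‖ +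
        ‖Tl (-(σ - k u)) z - Tl (-(σ - k u₀)) z‖ := by
    have := norm_add_le (Zi Ψ (P u).im (c u₀) σ y u r x v z - Tl (-(σ - k u)) z)
      (Tl (-(σ - k u)) z - Tl (-(σ - k u₀)) z)
    rwa [sub_add_sub_cancel] at this
  have s1 : |y - (P u).re - x| / r ≤ η / 8 := by
    rw [div_le_iff₀ hr]
    exact hy.trans (mul_le_mul_of_nonneg_right q3 hr.le)
  have s2 : |u - v| / r ≤ d := by
    rw [div_le_iff₀ hr]
    exact hv
  have s3 : |σ - k u| ≤ |σ| + S := (abs_sub _ _).trans (by linarith [(hS u hu).2])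
  have p2 : 0 ≤ |u - v| / r := by positivity
  have s4 : (1 + |σ - k u|) * (|u - v| / r) ≤ η / 8 := by
    have : (1 + |σ - k u|) * (|u - v| / r) ≤ D * d :=
      mul_le_mul (by rw [hD]; linarith) s2 p2 hD0.le
    linarith
  have qq1 : η / (8 * (B + 1)) * (B + 1) = η / 8 := by field_simp
  have q0 : 0 ≤ ‖z.2‖ := norm_nonneg _
  have qq2 : (|c u₀ - c u| + η / (8 * (B + 1))) * (‖z.2‖ + |u - v| / r) ≤ 2 * (η / 8) := by
    rw [abs_sub_comm] at c1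
    have : (|c u₀ - c u| + η / (8 * (B + 1))) * (‖z.2‖ + |u - v| / r) ≤
        (η / (8 * (B + 1)) + η / (8 * (B + 1))) * (B + 1) :=
      mul_le_mul (by linarith) (by linarith) (by positivity) (by positivity)
    linarith
  have qq3 : |k u - k u₀| * ‖z.2‖ ≤ η / 8 := by
    have : |k u - k u₀| * ‖z.2‖ ≤ η / (8 * (B + 1)) * (B + 1) :=
      mul_le_mul c2.le (by linarith) q0 hη8.le
    linarith
  linarith

end Vale.Agent.P097.H560
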