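import Vale.Agent.P097.H929.Thin2

/-!
# P097 : case [c] : the uniform comparison data are continuous in the label
-/

set_option linter.all false

open Complex Metric Filter Topology Set
open scoped ComplexConjugate

namespace Vale.Agent.P097.H560

open Vale.Agent.P097.H85 Vale.Agent.P097.H929

/-- the derivative `I c + k` of the comparison function, quantitative continuity -/
theorem cmp_close {M : Set (ℂ × ℂ)} {b m : ℝ} {Ψ : ℂ → ℂ} {ρ ε u u' : ℝ} {P P' : ℂ}
    {c k c' k' : ℝ} (h : Cmp M b m Ψ u ρ P c k 1 ε) (h' : Cmp M b m Ψ u' ρ P' c' k' 1 ε)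
    (hρ : 0 < ρ) (hε : 0 ≤ ε) (hu : |u' - u| ≤ ρ / 4) :
    ‖(I * c + k) - (I * c' + k' : ℂ)‖ ≤ 8 * ε ∧
      ‖P - P'‖ ≤ (‖(I * c + k : ℂ)‖ + ‖(I * c' + k' : ℂ)‖ + 2 * ε) * (3 * |u' - u|) := by
  constructor
  · obtain ⟨r, hr⟩ : ∃ r : ℝ, r = ρ / 4 := ⟨_, rfl⟩
    have hr0 : 0 < r := by rw [hr]; positivity
    rw [← hr] at hu
    have e1 : ∀ s : ℝ, ((u : ℂ) + s * I).re = u := fun s => by simp
    have e2 : ∀ s : ℝ, ((u : ℂ) + s * I).im = s := fun s => by simp
    have n1 : ∀ s : ℝ, 0 < s → ‖((u : ℂ) + s * I) - u‖ = s := by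
      intro s hs
      rw [add_sub_cancel_left, norm_mul, norm_I, mul_one, norm_real, Real.norm_of_nonneg hs.le]
    have n2 : ∀ s : ℝ, 0 < s → ‖((u : ℂ) + s * I) - u'‖ ≤ s + |u' - u| := by
      intro s hs
      have e3 : ((u : ℂ) + s * I) - u' = (((u : ℂ) + s * I) - u) + ((u - u' : ℝ) : ℂ) := by
        push_cast; ring
      rw [e3]
      refine (norm_add_le _ _).trans ?_
      rw [n1 s hs, norm_real, Real.norm_eq_abs, abs_sub_comm]
    have a1 : ∀ s : ℝ, 0 < s → s < ρ →
        ‖Ψ ((u : ℂ) + s * I) - P - (I * c + k) * (((u : ℂ) + s * I) - u)‖ ≤ ε * s := by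
      intro s hs hsρ
      have := h.nt ((u : ℂ) + s * I) (by rw [e1, sub_self, abs_zero]; exact hρ) (by rw [e2]; exact hs)
        (by rw [e2]; exact hsρ) (by rw [e1, e2, sub_self, abs_zero, mul_zero]; exact hs.le)
      rwa [n1 s hs] at this
    have a2 : ∀ s : ℝ, r ≤ s → s < ρ →
        ‖Ψ ((u : ℂ) + s * I) - P' - (I * c' + k') * (((u : ℂ) + s * I) - u')‖ ≤ ε * (s + r) := by
      intro s hs hsρ
      have hs0 : 0 < s := hr0.trans_le hs
      have := h'.nt ((u : ℂ) + s * I) (by rw [e1, abs_sub_comm]; linarith) (by rw [e2]; exact hs0)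
        (by rw [e2]; exact hsρ) (by rw [e1, e2, one_mul, abs_sub_comm]; linarith)
      refine this.trans (mul_le_mul_of_nonneg_left ?_ hε)
      have := n2 s hs0
      linarith
    have b1 := a1 r hr0 (by linarith)
    have b2 := a1 (2 * r) (by linarith) (by linarith)
    have b3 := a2 r le_rfl (by linarith)
    have b4 := a2 (2 * r) (by linarith) (by linarith)
    set X₁ : ℂ := Ψ ((u : ℂ) + (r : ℝ) * I) with hX₁
    set X₂ : ℂ := Ψ ((u : ℂ) + ((2 * r : ℝ) : ℂ) * I) with hX₂
    have key : ((I * c + k) - (I * c' + k' : ℂ)) * ((r : ℂ) * I) =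
        -(X₂ - P - (I * c + k) * (((u : ℂ) + ((2 * r : ℝ) : ℂ) * I) - u)) +
        (X₁ - P - (I * c + k) * (((u : ℂ) + (r : ℝ) * I) - u)) +
        (X₂ - P' - (I * c' + k') * (((u : ℂ) + ((2 * r : ℝ) : ℂ) * I) - u')) -
        (X₁ - P' - (I * c' + k') * (((u : ℂ) + (r : ℝ) * I) - u')) := by
      push_cast
      ring
    have hn : ‖((I * c + k) - (I * c' + k' : ℂ)) * ((r : ℂ) * I)‖ =
        ‖(I * c + k) - (I * c' + k' : ℂ)‖ * r := by
      rw [norm_mul, norm_mul, norm_I, mul_one, norm_real, Real.norm_of_nonneg hr0.le]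
    have hle : ‖(I * c + k) - (I * c' + k' : ℂ)‖ * r ≤ 8 * ε * r := by
      rw [← hn, key]
      refine (norm_sub_le _ _).trans ?_
      refine (add_le_add_left ((norm_add_le _ _).trans (add_le_add_left (norm_add_le _ _) _)) _).trans ?_
      rw [norm_neg]
      linarith
    exact le_of_mul_le_mul_right hle hr0
  · rcases eq_or_ne u' u with hh | hh
    · subst hh
      -- both are limits along the vertical
      have hlim : ∀ s : ℝ, 0 < s → s < ρ → ‖P - P'‖ ≤
          (‖(I * c + k : ℂ)‖ + ‖(I * c' + k' : ℂ)‖ + 2 * ε) * s := by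
        intro s hs hsρ
        have e1 : ((u' : ℂ) + s * I).re = u' := by simp
        have e2 : ((u' : ℂ) + s * I).im = s := by simp
        have n1 : ‖((u' : ℂ) + s * I) - u'‖ = s := by
          rw [add_sub_cancel_left, norm_mul, norm_I, mul_one, norm_real, Real.norm_of_nonneg hs.le]
        have c1 := h.nt ((u' : ℂ) + s * I) (by rw [e1, sub_self, abs_zero]; exact hρ)
          (by rw [e2]; exact hs) (by rw [e2]; exact hsρ)
          (by rw [e1, e2, sub_self, abs_zero, mul_zero]; exact hs.le)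
        have c2 := h'.nt ((u' : ℂ) + s * I) (by rw [e1, sub_self, abs_zero]; exact hρ)
          (by rw [e2]; exact hs) (by rw [e2]; exact hsρ)
          (by rw [e1, e2, sub_self, abs_zero, mul_zero]; exact hs.le)
        rw [n1] at c1 c2
        set X : ℂ := Ψ ((u' : ℂ) + s * I) with hX
        have key : P - P' = -(X - P - (I * c + k) * (((u' : ℂ) + s * I) - u')) +
            (X - P' - (I * c' + k') * (((u' : ℂ) + s * I) - u')) -
            (I * c + k) * (((u' : ℂ) + s * I) - u') + (I * c' + k') * (((u' : ℂ) + s * I) - u') := by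
          ring
        have d1 : ‖P - P'‖ ≤ ε * s + ε * s + ‖(I * c + k : ℂ)‖ * s + ‖(I * c' + k' : ℂ)‖ * s := by
          calc ‖P - P'‖ = ‖-(X - P - (I * c + k) * (((u' : ℂ) + s * I) - u')) +
            (X - P' - (I * c' + k') * (((u' : ℂ) + s * I) - u')) -
            (I * c + k) * (((u' : ℂ) + s * I) - u') + (I * c' + k') * (((u' : ℂ) + s * I) - u')‖ := by
                rw [← key]
            _ ≤ ‖-(X - P - (I * c + k) * (((u' : ℂ) + s * I) - u'))‖ +
                ‖X - P' - (I * c' + k') * (((u' : ℂ) + s * I) - u')‖ +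
                ‖(I * c + k) * (((u' : ℂ) + s * I) - u')‖ +
                ‖(I * c' + k') * (((u' : ℂ) + s * I) - u')‖ :=
              (norm_add_le _ _).trans (add_le_add_left ((norm_sub_le _ _).trans
                (add_le_add_left (norm_add_le _ _) _)) _)
            _ ≤ _ := by
              rw [norm_neg, norm_mul, norm_mul, n1]
              linarith
        linarith
      rw [sub_self, abs_zero, mul_zero, mul_zero]
      set L : ℝ := ‖(I * c + k : ℂ)‖ + ‖(I * c' + k' : ℂ)‖ + 2 * ε with hL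
      have hL0 : 0 ≤ L := by positivity
      have ht : Tendsto (fun s : ℝ => L * s) (𝓝[>] 0) (𝓝 (L * 0)) :=
        ((continuous_const.mul continuous_id).tendsto 0).mono_left nhdsWithin_le_nhds
      rw [mul_zero] at ht
      refine ge_of_tendsto ht ?_
      filter_upwards [Ioo_mem_nhdsGT hρ] with s hs
      exact hlim s hs.1 hs.2
    · obtain ⟨s, hs⟩ : ∃ s : ℝ, s = |u' - u| := ⟨_, rfl⟩
      have hs0 : 0 < s := by rw [hs]; exact abs_pos.2 (sub_ne_zero.2 hh)
      rw [← hs] at hu ⊢
      have e1 : ((u : ℂ) + s * I).re = u := by simp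
      have e2 : ((u : ℂ) + s * I).im = s := by simp
      have n1 : ‖((u : ℂ) + s * I) - u‖ = s := by
        rw [add_sub_cancel_left, norm_mul, norm_I, mul_one, norm_real, Real.norm_of_nonneg hs0.le]
      have n2 : ‖((u : ℂ) + s * I) - u'‖ ≤ 2 * s := by
        have e3 : ((u : ℂ) + s * I) - u' = (((u : ℂ) + s * I) - u) + ((u - u' : ℝ) : ℂ) := by
          push_cast; ring
        rw [e3]
        refine (norm_add_le _ _).trans ?_
        rw [n1, norm_real, Real.norm_eq_abs, abs_sub_comm, ← hs]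
        linarith
      have c1 := h.nt ((u : ℂ) + s * I) (by rw [e1, sub_self, abs_zero]; exact hρ)
        (by rw [e2]; exact hs0) (by rw [e2]; linarith)
        (by rw [e1, e2, sub_self, abs_zero, mul_zero]; exact hs0.le)
      have c2 := h'.nt ((u : ℂ) + s * I) (by rw [e1, abs_sub_comm, ← hs]; linarith)
        (by rw [e2]; exact hs0) (by rw [e2]; linarith)
        (by rw [e1, e2, one_mul, abs_sub_comm, ← hs])
      rw [n1] at c1
      set X : ℂ := Ψ ((u : ℂ) + s * I) with hX
      have key : P - P' = -(X - P - (I * c + k) * (((u : ℂ) + s * I) - u)) +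
          (X - P' - (I * c' + k') * (((u : ℂ) + s * I) - u')) -
          (I * c + k) * (((u : ℂ) + s * I) - u) + (I * c' + k') * (((u : ℂ) + s * I) - u') := by
        ring
      have d1 : ‖P - P'‖ ≤ ε * s + ε * (2 * s) + ‖(I * c + k : ℂ)‖ * s +
          ‖(I * c' + k' : ℂ)‖ * (2 * s) := by
        calc ‖P - P'‖ = ‖-(X - P - (I * c + k) * (((u : ℂ) + s * I) - u)) +
          (X - P' - (I * c' + k') * (((u : ℂ) + s * I) - u')) -
          (I * c + k) * (((u : ℂ) + s * I) - u) + (I * c' + k') * (((u : ℂ) + s * I) - u')‖ := by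
              rw [← key]
          _ ≤ ‖-(X - P - (I * c + k) * (((u : ℂ) + s * I) - u))‖ +
              ‖X - P' - (I * c' + k') * (((u : ℂ) + s * I) - u')‖ +
              ‖(I * c + k) * (((u : ℂ) + s * I) - u)‖ +
              ‖(I * c' + k') * (((u : ℂ) + s * I) - u')‖ :=
            (norm_add_le _ _).trans (add_le_add_left ((norm_sub_le _ _).trans
              (add_le_add_left (norm_add_le _ _) _)) _)
          _ ≤ _ := by
            rw [norm_neg, norm_mul, norm_mul, n1]
            have f1 : ε * ‖((u : ℂ) + s * I) - u'‖ ≤ ε * (2 * s) :=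
              mul_le_mul_of_nonneg_left n2 hε
            have f2 : ‖(I * c' + k' : ℂ)‖ * ‖((u : ℂ) + s * I) - u'‖ ≤ ‖(I * c' + k' : ℂ)‖ * (2 * s) :=
              mul_le_mul_of_nonneg_left n2 (norm_nonneg _)
            linarith
      have f3 := norm_nonneg (I * c + k : ℂ)
      have f4 := norm_nonneg (I * c' + k' : ℂ)
      nlinarith

/-- **the comparison data are continuous on the set of labels** -/
theorem cmpU_cont {M : Set (ℂ × ℂ)} {b m : ℝ} {Ψ : ℂ → ℂ} {A : Set ℝ} {P : ℝ → ℂ} {c k : ℝ → ℝ}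
    (hU : CmpU M b m Ψ A P c k) : ContinuousOn P A ∧ ContinuousOn c A ∧ ContinuousOn k A := by
  obtain ⟨S, hS⟩ := hU.bd
  have hg : ∀ η > 0, ∃ ρ > 0, ∀ u ∈ A, ∀ u' ∈ A, |u' - u| < ρ →
      ‖(I * c u + k u) - (I * c u' + k u' : ℂ)‖ ≤ η := by
    intro η hη
    obtain ⟨ρ, hρ, h⟩ := hU.cmp 1 one_pos (η / 8) (by positivity)
    refine ⟨ρ / 4, by positivity, fun u hu u' hu' huu => ?_⟩
    have := (cmp_close (h u hu) (h u' hu') hρ (by positivity) huu.le).1
    linarith
  have hgb : ∀ u ∈ A, ‖(I * c u + k u : ℂ)‖ ≤ 2 * S := by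
    intro u hu
    refine (norm_add_le _ _).trans ?_
    rw [norm_mul, norm_I, one_mul, norm_real, norm_real, Real.norm_eq_abs, Real.norm_eq_abs]
    linarith [(hS u hu).1, (hS u hu).2]
  refine ⟨?_, ?_, ?_⟩
  · rw [Metric.continuousOn_iff]
    intro u' hu' η hη
    obtain ⟨ρ, hρ, h⟩ := hU.cmp 1 one_pos 1 one_pos
    have hS0 : 0 ≤ S := (abs_nonneg _).trans (hS u' hu').1
    refine ⟨min (ρ / 4) (η / (3 * (4 * S + 2) + 1)), by positivity, fun u hu huu => ?_⟩
    rw [Real.dist_eq] at huu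
    have h1 := huu.trans_le (min_le_left _ _)
    have h2 := huu.trans_le (min_le_right _ _)
    have h3 := (cmp_close (h u' hu') (h u hu) hρ zero_le_one h1.le).2
    have h4 := hgb u hu
    have h5 := hgb u' hu'
    rw [dist_comm, dist_eq_norm]
    have h6 : (‖(I * c u' + k u' : ℂ)‖ + ‖(I * c u + k u : ℂ)‖ + 2 * 1) * (3 * |u - u'|) ≤
        (4 * S + 2) * (3 * |u - u'|) := by
      apply mul_le_mul_of_nonneg_right _ (by positivity)
      linarith
    have h7 : (3 * (4 * S + 2) + 1) * |u - u'| < η := by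
      rwa [lt_div_iff₀' (by positivity)] at h2
    have h8 : 0 ≤ |u - u'| := abs_nonneg _
    nlinarith
  · rw [Metric.continuousOn_iff]
    intro u' hu' η hη
    obtain ⟨ρ, hρ, h⟩ := hg (η / 2) (by positivity)
    refine ⟨ρ, hρ, fun u hu huu => ?_⟩
    rw [Real.dist_eq] at huu ⊢
    have h1 := h u' hu' u hu huu
    have h2 := (Complex.abs_im_le_norm _).trans h1
    have h3 : ((I * c u' + k u') - (I * c u + k u : ℂ)).im = c u' - c u := by simp
    rw [h3, abs_sub_comm] at h2
    linarith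
  · rw [Metric.continuousOn_iff]
    intro u' hu' η hη
    obtain ⟨ρ, hρ, h⟩ := hg (η / 2) (by positivity)
    refine ⟨ρ, hρ, fun u hu huu => ?_⟩
    rw [Real.dist_eq] at huu ⊢
    have h1 := h u' hu' u hu huu
    have h2 := (Complex.abs_re_le_norm _).trans h1
    have h3 : ((I * c u' + k u') - (I * c u + k u : ℂ)).re = k u' - k u := by simp
    rw [h3, abs_sub_comm] at h2
    linarith

end Vale.Agent.P097.H560
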