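import Vale.Agent.P097.H190.Seq1
import Vale.Agent.P097.H560.Cont
import Vale.Agent.P097.TC.Defs5

/-!
# P097 : case [c] : the expansion `SQ.Exp` of row W-SEQ along labels, from `CmpU`
-/

set_option linter.all false

open Complex Metric Filter Topology Set
open scoped ComplexConjugate

namespace Vale.Agent.P097.H560

open Vale.Agent.P097.H85 Vale.Agent.P097.H929 Vale.Agent.P097.TC

/-- the uniform non-tangential expansion along any sequence of labels -/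
theorem exp_of {M : Set (ℂ × ℂ)} {b m : ℝ} {Ψ : ℂ → ℂ} {A : Set ℝ} {P : ℝ → ℂ} {c k : ℝ → ℝ}
    (h : CmpU M b m Ψ A P c k) {a : ℕ → ℝ} (ha : ∀ n, a n ∈ A) : H190.SQ.Exp P Ψ c k a := by
  intro c₀ hc₀ ε hε
  obtain ⟨ρ, hρ, h1⟩ := h.cmp c₀ hc₀ ε hε
  exact ⟨ρ, hρ, fun n w h2 h3 h4 h5 => (h1 (a n) (ha n)).nt w h2 h3 h4 h5⟩

/-- `P`, `c`, `k` converge along a sequence of labels (any filter) -/
theorem lim_of {M : Set (ℂ × ℂ)} {b m : ℝ} {Ψ : ℂ → ℂ} {A : Set ℝ} {P : ℝ → ℂ} {c k : ℝ → ℝ}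
    (h : CmpU M b m Ψ A P c k) {a : ℕ → ℝ} (ha : ∀ n, a n ∈ A) {u₀ : ℝ} (hu₀ : u₀ ∈ A)
    {L : Filter ℕ} (hau : Tendsto a L (𝓝 u₀)) :
    Tendsto (fun n => P (a n)) L (𝓝 (P u₀)) ∧ Tendsto (fun n => c (a n)) L (𝓝 (c u₀)) ∧
      Tendsto (fun n => k (a n)) L (𝓝 (k u₀)) := by
  obtain ⟨h1, h2, h3⟩ := cmpU_cont h
  have h4 : Tendsto a L (𝓝[A] u₀) := tendsto_nhdsWithin_iff.2 ⟨hau, Eventually.of_forall ha⟩
  exact ⟨(h1 u₀ hu₀).tendsto.comp h4, (h2 u₀ hu₀).tendsto.comp h4, (h3 u₀ hu₀).tendsto.comp h4⟩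

end Vale.Agent.P097.H560
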