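import Vale.Agent.P097.H929.Thin2

/-!
# P097 : case [c], the wide tube has no gaps in the straight coordinates `s = t - Ψ w`

85's Hartogs figure needs the window only at heights `≥ c₀ r`; below it uses the base, which is
exactly `Im t < Im Ψ w` over ALL real labels.  So it works at every real centre `v` near `u`,
whether `v` is a good label or not.
-/

set_option linter.all false

open Complex Metric Filter Topology Set

namespace Vale.Agent.P097.H560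

open Vale.Agent.P097.H85 Vale.Agent.P097.H929

/-- membership in the window, discs with another centre `v` -/
theorem mem_win' {M : Set (ℂ × ℂ)} {b m : ℝ} {Ψ : ℂ → ℂ} {u ρ : ℝ} {P₀ : ℂ} {c k c₀ ε : ℝ}
    (hC : Cmp M b m Ψ u ρ P₀ c k c₀ ε) {s₁ δ Λ κ e₀ : ℝ} (hδ : 0 < δ) (hc₀ : 0 < c₀)
    (hε : 0 ≤ ε) (hε1 : 8 * ε ≤ δ * c₀)
    (hΛ : 1 + |c| + |k| + 2 * ε + |s₁| + 4 * δ ≤ Λ) {r R : ℝ} (hr : 0 < r) (hrρ : r < ρ)
    (hR : R = r / 2) (hκR : κ * R = 2 * δ) (hκ : 0 < κ) (he0 : 0 ≤ e₀) {y v : ℝ} {ζ z : ℂ}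
    (hv : |v - u| ≤ R)
    (hζ1 : |ζ.re - (y - P₀.re)| < R) (hζ3 : ζ.im < 0) (a1 : |z.re - v| ≤ R) (a2 : 0 < z.im)
    (a3 : z.im ≤ R) (hz1 : c₀ * r ≤ z.im) (hb : b < (ζ + phi Ψ v s₁ κ e₀ z).im) :
    (ζ + phi Ψ v s₁ κ e₀ z, z) ∈ Win b u P₀.im c y r (k + s₁ + 3 * δ) c₀ Λ := by
  have a1' : |z.re - u| ≤ r := by
    have := abs_sub_le z.re v u
    linarith
  have a3' : z.im ≤ r := by linarith
  have a5 : c₀ * |z.re - u| ≤ z.im := (mul_le_mul_of_nonneg_left a1' hc₀.le).trans hz1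
  obtain ⟨n1, n2⟩ := hC.re_im hε (r := r) (by linarith) a2 (by linarith) a5 a1' a3'
  have hR0 : 0 < R := by linarith
  refine ⟨a1', hz1, a3', ?_, hb, ?_⟩
  · show |(ζ + phi Ψ v s₁ κ e₀ z).re - y| ≤ Λ * r
    have e1 : |s₁ * (z.re - v)| ≤ |s₁| * R := by
      rw [abs_mul]; exact mul_le_mul_of_nonneg_left a1 (abs_nonneg _)
    have e2 : |2 * κ * ((z.re - v) * z.im)| ≤ 4 * δ * R := by
      have e3 : |(z.re - v) * z.im| ≤ R * R := by
        rw [abs_mul, abs_of_pos a2]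
        exact mul_le_mul a1 a3 a2.le hR0.le
      rw [abs_mul, abs_of_pos (by positivity : 0 < 2 * κ)]
      have e4 := mul_le_mul_of_nonneg_left e3 (by positivity : 0 ≤ 2 * κ)
      have e5 : 2 * κ * (R * R) = 2 * (κ * R) * R := by ring
      rw [e5, hκR] at e4
      linarith
    have e6 : (ζ + phi Ψ v s₁ κ e₀ z).re - y = (ζ.re - (y - P₀.re)) + ((Ψ z).re - P₀.re) +
        s₁ * (z.re - v) + 2 * κ * ((z.re - v) * z.im) := by
      rw [add_re, phi_re]; ring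
    rw [e6]
    have e7 := abs_add_le ((ζ.re - (y - P₀.re)) + ((Ψ z).re - P₀.re) +
        s₁ * (z.re - v)) (2 * κ * ((z.re - v) * z.im))
    have e8 := abs_add_le ((ζ.re - (y - P₀.re)) + ((Ψ z).re - P₀.re)) (s₁ * (z.re - v))
    have e9 := abs_add_le (ζ.re - (y - P₀.re)) ((Ψ z).re - P₀.re)
    have e10 : (1 + |c| + |k| + 2 * ε + |s₁| + 4 * δ) * r ≤ Λ * r :=
      mul_le_mul_of_nonneg_right hΛ hr.le
    have e11 : (1 + |c| + |k| + 2 * ε + |s₁| + 4 * δ) * r =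
      r + (|c| + |k| + 2 * ε) * r + |s₁| * r + 4 * δ * r := by ring
    have e12 : |s₁| * R ≤ |s₁| * r := mul_le_mul_of_nonneg_left (by linarith) (abs_nonneg _)
    have e13 : 4 * δ * R ≤ 4 * δ * r := mul_le_mul_of_nonneg_left (by linarith) (by positivity)
    linarith
  · have e1 := (abs_le.1 n2).2
    have e2 : 2 * ε * r ≤ δ * z.im := by
      have e3 : 8 * ε * r ≤ δ * c₀ * r := mul_le_mul_of_nonneg_right hε1 hr.le
      have e4 : δ * (c₀ * r) ≤ δ * z.im := mul_le_mul_of_nonneg_left hz1 hδ.le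
      have e5 : 0 ≤ δ * z.im := by positivity
      have e6 : 0 ≤ ε * r := by positivity
      linarith
    show (ζ + phi Ψ v s₁ κ e₀ z).im ≤ P₀.im + c * (z.re - u) + (k + s₁ + 3 * δ) * z.im
    rw [add_im, phi_im]
    have e6 : κ * ((z.re - v) ^ 2 - z.im ^ 2) = κ * (z.re - v) ^ 2 - κ * z.im ^ 2 := by ring
    have e7 : (k + s₁ + 3 * δ) * z.im = k * z.im + s₁ * z.im + 3 * δ * z.im := by ring
    have e8 : κ * z.im ^ 2 ≤ 2 * δ * z.im := by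
      have e9 : κ * z.im ≤ κ * R := mul_le_mul_of_nonneg_left a3 hκ.le
      have e10 : κ * z.im * z.im ≤ κ * R * z.im := mul_le_mul_of_nonneg_right e9 a2.le
      rw [hκR] at e10
      have e11 : κ * z.im ^ 2 = κ * z.im * z.im := by ring
      linarith
    have e9 : 0 ≤ κ * (z.re - v) ^ 2 := by positivity
    rw [e6, e7]
    linarith

/-- **The wide tube has no gaps.**  One window at the label `u` gives the whole wedge
`Im t < Im Ψ w + s₁ Im w` over a full box of real labels. -/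
theorem wide_full {M : Set (ℂ × ℂ)} {b m : ℝ} {Ψ : ℂ → ℂ} {u ρ : ℝ} {P₀ : ℂ} {c k c₀ ε : ℝ}
    (hM : RH b M) (hC : Cmp M b m Ψ u ρ P₀ c k c₀ ε) {s₁ δ Λ : ℝ} (hbm : b < m) (hδ : 0 < δ)
    (hc₀ : 0 < c₀) (hc1 : c₀ ≤ 1 / 4) (hε : 0 ≤ ε) (hε1 : 8 * ε ≤ δ * c₀)
    (hs : 4 * (|s₁| * c₀) ≤ δ) (hΛ : 1 + |c| + |k| + 2 * ε + |s₁| + 4 * δ ≤ Λ) {r : ℝ}
    (hr : 0 < r) (hrρ : r < ρ) (hr1 : (|s₁| + 2 * δ) * r ≤ (m - b) / 16) {y : ℝ}
    (hwin : Win b u P₀.im c y r (k + s₁ + 3 * δ) c₀ Λ ⊆ M) {t w : ℂ} (hw1 : |w.re - u| ≤ r / 2)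
    (hw2 : 0 < w.im) (hw3 : w.im < r / 2) (ht1 : |(t - Ψ w).re - (y - P₀.re)| < r / 2)
    (ht2 : b < t.im) (ht3 : t.im < (Ψ w).im + s₁ * w.im) : (t, w) ∈ M := by
  obtain ⟨v, hv⟩ : ∃ v : ℝ, v = w.re := ⟨_, rfl⟩
  obtain ⟨R, hR⟩ : ∃ R : ℝ, R = r / 2 := ⟨_, rfl⟩
  have hvu : |v - u| ≤ R := by rw [hv, hR]; exact hw1
  have hR0 : 0 < R := by rw [hR]; positivity
  obtain ⟨κ, hκd⟩ : ∃ κ : ℝ, κ = 2 * δ / R := ⟨_, rfl⟩
  have hκR : κ * R = 2 * δ := by rw [hκd]; field_simp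
  have hκ : 0 < κ := by rw [hκd]; positivity
  have hκR2 : κ * R ^ 2 = 2 * δ * R := by rw [pow_two, ← mul_assoc, hκR]
  obtain ⟨η, hη, hη1, he1, he2⟩ := exists_eta (s₁ := s₁) (κ := κ)
    (show (0 : ℝ) < κ * w.im ^ 2 by positivity) (show (0 : ℝ) < (m - b) / 16 by linarith) hw2
  obtain ⟨e₀, he₀⟩ : ∃ e₀ : ℝ, e₀ = |s₁| * η + κ * η ^ 2 := ⟨_, rfl⟩
  rw [← he₀] at he1 he2
  have he0 : 0 ≤ e₀ := by rw [he₀]; positivity
  have hηR : η < R := by linarith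
  have hdist : (|s₁| + 2 * δ) * r = 2 * (|s₁| * R) + 2 * (2 * δ * R) := by rw [hR]; ring
  have hsR : 0 ≤ |s₁| * R := by positivity
  have hδR : 0 < δ * R := by positivity
  have hRU : Rc (v - R) (v + R) η R ⊆ {w : ℂ | |w.re - u| < ρ ∧ 0 < w.im ∧ w.im < ρ} := by
    intro z hz
    have hle : |z.re - v| ≤ R := abs_le.2 ⟨by linarith [hz.1.1], by linarith [hz.1.2]⟩
    have h1 := abs_sub_le z.re v u
    exact ⟨by linarith, by linarith [hz.2.1], by linarith [hz.2.2]⟩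
  have habove : ∀ ζ : ℂ, -((m - b) / 4) < ζ.im → ∀ z ∈ Rc (v - R) (v + R) η R,
      b < (ζ + phi Ψ v s₁ κ e₀ z).im := by
    intro ζ hζ z hz
    obtain ⟨⟨a1, a2, a3⟩, ⟨a4, a5⟩, ⟨a6, a7⟩, ⟨a8, a9⟩, a10⟩ := rect_est (s₁ := s₁) hη hκ hκR2 hz
    obtain ⟨b1, b2, b3⟩ := hRU hz
    have hb := hC.bdd z b1 b2 b3
    rw [add_im, phi_im]
    linarith
  have hbase : ∀ ζ : ℂ, -((m - b) / 4) < ζ.im → ∀ z ∈ Rc (v - R) (v + R) η R,
      ζ.im + s₁ * z.im - κ * ((z.re - v) ^ 2 - z.im ^ 2) - e₀ < 0 →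
      (ζ + phi Ψ v s₁ κ e₀ z, z) ∈ M := by
    intro ζ hζ z hz hlt
    obtain ⟨b1, b2, b3⟩ := hRU hz
    apply hC.base _ _ b1 b2 b3 (habove ζ hζ z hz)
    rw [add_im, phi_im]
    linarith
  have key : ∀ ζ : ℂ, |ζ.re - (y - P₀.re)| < R → -((m - b) / 4) < ζ.im → ζ.im < 0 →
      (ζ + phi Ψ v s₁ κ e₀ w, w) ∈ M := by
    intro ζ h1 h2 h3
    have hwR : w ∈ Ro (v - R) (v + R) η R :=
      ⟨⟨by linarith, by linarith⟩, hη1, by linarith⟩
    refine hM.har (phi Ψ v s₁ κ e₀) _ (v - R) (v + R) η R (y - P₀.re) R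
      ((m - b) / 4) (isOpen_box u ρ) (phi_diff hC.hol _ _ _ _) hRU (by linarith) ?_ ?_ ζ h1 h2 h3 w hwR
    · intro ζ hζ1 hζ2 hζ3 z hz hz'
      obtain ⟨⟨a1, a2, a3⟩, ⟨a4, a5⟩, ⟨a6, a7⟩, ⟨a8, a9⟩, a10⟩ := rect_est (s₁ := s₁) hη hκ hκR2 hz
      rcases mem_bd hz hz' with h | h | h
      · have hXr : (z.re - v) ^ 2 = R ^ 2 := by rw [← sq_abs (z.re - v), h]
        by_cases hzc : c₀ * r ≤ z.im
        · exact hwin (mem_win' hC hδ hc₀ hε hε1 hΛ hr hrρ hR hκR hκ he0 hvu hζ1 hζ3 a1 a2 a3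
            hzc (habove ζ hζ2 z hz))
        · push Not at hzc
          apply hbase ζ hζ2 z hz
          rw [hXr]
          have e1 : |s₁| * z.im ≤ |s₁| * (c₀ * r) := mul_le_mul_of_nonneg_left hzc.le (abs_nonneg _)
          have e2 : (4 * (|s₁| * c₀)) * R ≤ δ * R := mul_le_mul_of_nonneg_right hs hR0.le
          have e3 : |s₁| * (c₀ * r) = (4 * (|s₁| * c₀)) * R / 2 := by rw [hR]; ring
          have e4 : z.im ≤ 1 / 2 * R := by
            have : c₀ * r ≤ 1 / 4 * r := mul_le_mul_of_nonneg_right hc1 hr.le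
            linarith
          have e5 : z.im ^ 2 ≤ (1 / 2 * R) ^ 2 := pow_le_pow_left₀ a2.le e4 2
          have e6 : κ * z.im ^ 2 ≤ κ * (1 / 2 * R) ^ 2 := mul_le_mul_of_nonneg_left e5 hκ.le
          have e7 : κ * (1 / 2 * R) ^ 2 = (κ * R ^ 2) / 4 := by ring
          rw [e7, hκR2] at e6
          have e8 : κ * (R ^ 2 - z.im ^ 2) = κ * R ^ 2 - κ * z.im ^ 2 := by ring
          rw [e8, hκR2]
          linarith
      · apply hbase ζ hζ2 z hz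
        have e7 : κ * ((z.re - v) ^ 2 - z.im ^ 2) = κ * (z.re - v) ^ 2 - κ * z.im ^ 2 := by ring
        rw [e7, he₀]
        rw [h] at a8 ⊢
        linarith
      · refine hwin (mem_win' hC hδ hc₀ hε hε1 hΛ hr hrρ hR hκR hκ he0 hvu hζ1 hζ3 a1 a2 a3
            ?_ (habove ζ hζ2 z hz))
        rw [h]
        have : c₀ * r ≤ 1 / 4 * r := mul_le_mul_of_nonneg_right hc1 hr.le
        linarith
    · intro ζ hζ1 hζ2 hζ3 z hz
      obtain ⟨⟨a1, a2, a3⟩, ⟨a4, a5⟩, ⟨a6, a7⟩, ⟨a8, a9⟩, a10⟩ := rect_est (s₁ := s₁) hη hκ hκR2 hz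
      apply hbase ζ hζ2 z hz
      have e7 : κ * ((z.re - v) ^ 2 - z.im ^ 2) = κ * (z.re - v) ^ 2 - κ * z.im ^ 2 := by ring
      rw [e7]
      linarith
  have hζ : t - phi Ψ v s₁ κ e₀ w + phi Ψ v s₁ κ e₀ w = t := by ring
  have hphi : (phi Ψ v s₁ κ e₀ w).im = (Ψ w).im + s₁ * w.im + κ * w.im ^ 2 - e₀ := by
    rw [phi_im, hv]; ring
  have hphr : (phi Ψ v s₁ κ e₀ w).re = (Ψ w).re := by
    rw [phi_re, hv]; ring
  have h3 : (t - phi Ψ v s₁ κ e₀ w).im < 0 := by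
    rw [sub_im, hphi]; linarith
  have h1 : |(t - phi Ψ v s₁ κ e₀ w).re - (y - P₀.re)| < R := by
    rw [sub_re, hphr, hR, ← sub_re]; exact ht1
  by_cases h2 : -((m - b) / 4) < (t - phi Ψ v s₁ κ e₀ w).im
  · have := key _ h1 h2 h3
    rwa [hζ] at this
  · push Not at h2
    have h4 := key ((((t - phi Ψ v s₁ κ e₀ w).re : ℝ) : ℂ) + ((-(m - b) / 8 : ℝ) : ℂ) * I)
      (by simpa using h1) (by simp; linarith) (by simp; linarith)
    have h5 := hM.dn.down _ _ t.im h4 ht2 (by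
      rw [sub_im] at h2
      simp
      linarith)
    have h6 : ((((((t - phi Ψ v s₁ κ e₀ w).re : ℝ) : ℂ) + ((-(m - b) / 8 : ℝ) : ℂ) * I) +
        phi Ψ v s₁ κ e₀ w).re : ℂ) + t.im * I = t := by
      apply Complex.ext
      · simp
      · simp
    rwa [h6] at h5

/-- **Uniform form**, from the regularity of the windows (`RegB`) near `(y₀, u₀)`. -/
theorem wide_unif {M : Set (ℂ × ℂ)} {b m : ℝ} {Ψ : ℂ → ℂ} {A : Set ℝ} {P : ℝ → ℂ} {c k : ℝ → ℝ}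
    (hM : RH b M) (hU : CmpU M b m Ψ A P c k) (hbm : b < m) {y₀ u₀ s' : ℝ}
    (hR : RegB M b A P c y₀ u₀ s') {γ : ℝ} (hγ : 0 < γ) :
    ∃ d > 0, ∀ u ∈ A, |u - u₀| < d → ∀ y : ℝ, |y - y₀| < d → ∀ t w : ℂ, |w.re - u| < d →
      0 < w.im → w.im < d → |(t - Ψ w).re - (y - (P u).re)| < d → b < t.im →
      t.im < (Ψ w).im + (s' - k u - γ) * w.im → (t, w) ∈ M := by
  obtain ⟨S, hS⟩ := hU.bd
  obtain ⟨d₀, hd₀, hreg⟩ := hR
  obtain ⟨S', hS'⟩ : ∃ S' : ℝ, S' = |S| + |s'| + γ := ⟨_, rfl⟩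
  have hS'0 : 0 < S' := by rw [hS']; positivity
  obtain ⟨δ, hδd⟩ : ∃ δ : ℝ, δ = γ / 3 := ⟨_, rfl⟩
  have hδ : 0 < δ := by rw [hδd]; positivity
  -- |s₁| ≤ S'
  have hs₁ : ∀ u ∈ A, |s' - k u - γ| ≤ S' := by
    intro u hu
    have h1 := (hS u hu).2
    have h2 := le_abs_self S
    rw [hS']
    have h3 := abs_sub (s' - k u) γ
    have h4 := abs_sub s' (k u)
    rw [abs_of_pos hγ] at h3
    linarith
  obtain ⟨c₀, hc₀, hc1, hc2⟩ : ∃ c₀ > 0, c₀ ≤ 1 / 4 ∧ 4 * (S' * c₀) ≤ δ := by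
    refine ⟨min (1 / 4) (δ / (4 * S')), by positivity, min_le_left _ _, ?_⟩
    have h1 : min (1 / 4) (δ / (4 * S')) ≤ δ / (4 * S') := min_le_right _ _
    have h2 : 4 * (S' * min (1 / 4) (δ / (4 * S'))) ≤ 4 * (S' * (δ / (4 * S'))) := by gcongr
    have h3 : 4 * (S' * (δ / (4 * S'))) = δ := by field_simp
    linarith
  obtain ⟨ε, hεd⟩ : ∃ ε : ℝ, ε = δ * c₀ / 8 := ⟨_, rfl⟩
  have hε : 0 < ε := by rw [hεd]; positivity
  obtain ⟨ρ, hρ, hcmp⟩ := hU.cmp c₀ hc₀ ε hε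
  obtain ⟨r₀, hr₀, hwin⟩ := hreg c₀ hc₀ (1 + 2 * |S| + 2 * ε + S' + 4 * δ)
  obtain ⟨r, hr, hr1, hr2, hr3⟩ : ∃ r > 0, r < ρ ∧ r < r₀ ∧ (S' + 2 * δ) * r ≤ (m - b) / 16 := by
    have hmb : 0 < m - b := by linarith
    refine ⟨min (min (ρ / 2) (r₀ / 2)) ((m - b) / 16 / (S' + 2 * δ)), by positivity, ?_, ?_, ?_⟩
    · have := (min_le_left (min (ρ / 2) (r₀ / 2)) ((m - b) / 16 / (S' + 2 * δ))).trans
        (min_le_left _ _)
      linarith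
    · have := (min_le_left (min (ρ / 2) (r₀ / 2)) ((m - b) / 16 / (S' + 2 * δ))).trans
        (min_le_right _ _)
      linarith
    · have h1 := min_le_right (min (ρ / 2) (r₀ / 2)) ((m - b) / 16 / (S' + 2 * δ))
      have h2 := mul_le_mul_of_nonneg_left h1 (by positivity : 0 ≤ S' + 2 * δ)
      have h3 : (S' + 2 * δ) * ((m - b) / 16 / (S' + 2 * δ)) = (m - b) / 16 := by field_simp
      linarith
  refine ⟨min d₀ (r / 2), by positivity, ?_⟩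
  intro u hu hud y hyd t w hw1 hw2 hw3 ht1 ht2 ht3
  have g1 := min_le_left d₀ (r / 2)
  have g2 := min_le_right d₀ (r / 2)
  have h1 := hs₁ u hu
  have h2 := hS u hu
  have h3 := le_abs_self S
  have hsum : k u + (s' - k u - γ) + 3 * δ = s' := by rw [hδd]; ring
  refine wide_full hM (hcmp u hu) (s₁ := s' - k u - γ) (δ := δ)
    (Λ := 1 + 2 * |S| + 2 * ε + S' + 4 * δ) hbm hδ hc₀ hc1 hε.le (by rw [hεd]; linarith)
    ?_ ?_ hr hr1 ?_ (y := y) ?_ (by linarith) hw2 (by linarith) (by linarith) ht2 ht3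
  · have : |s' - k u - γ| * c₀ ≤ S' * c₀ := mul_le_mul_of_nonneg_right h1 hc₀.le
    linarith
  · linarith [h2.1, h2.2]
  · have : (|s' - k u - γ| + 2 * δ) * r ≤ (S' + 2 * δ) * r :=
      mul_le_mul_of_nonneg_right (by linarith) hr.le
    linarith
  · rw [hsum]
    exact hwin u hu (by linarith) y (by linarith) r hr hr2

end Vale.Agent.P097.H560
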