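import Vale.Agent.P097.H560.Cont
import Vale.Agent.P097.H560.Gen
import Vale.Agent.P097.TC.Defs5

/-!
# P097 : case [c] : from straight coordinates back to the blown-up coordinates `kpt`
-/

set_option linter.all false

open Complex Metric Filter Topology Set
open scoped ComplexConjugate

namespace Vale.Agent.P097.H560

open Vale.Agent.P097.H85 Vale.Agent.P097.H929 Vale.Agent.P097.TC Vale.Agent.P097.H226.W

/-- the point `kpt .. z` in straight coordinates at the centre `v`, real part `x`, unit = `r` -/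
noncomputable def Zt (Ψ : ℂ → ℂ) (R c₀ σ y u r x v : ℝ) (z : ℂ × ℂ) : ℂ × ℂ :=
  (((kpt R c₀ σ y u r z).1 - x - Ψ (kpt R c₀ σ y u r z).2) / r, ((kpt R c₀ σ y u r z).2 - v) / r)

/-- the limit of `Zt` -/
noncomputable def Tl (τ : ℝ) (z : ℂ × ℂ) : ℂ × ℂ := (z.1 + (τ : ℂ) * z.2, z.2)

theorem continuous_Tl (τ : ℝ) : Continuous (Tl τ) := by
  unfold Tl
  fun_prop

theorem Sx_Zt {Ψ : ℂ → ℂ} {R c₀ σ y u r x v ρ : ℝ} (hr : r ≠ 0) (hρ : ρ ≠ 0) (z : ℂ × ℂ) :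
    Sx Ψ x v ρ (((r / ρ : ℝ) : ℂ) • Zt Ψ R c₀ σ y u r x v z) = kpt R c₀ σ y u r z := by
  have hr' : (r : ℂ) ≠ 0 := ofReal_ne_zero.2 hr
  have hρ' : (ρ : ℂ) ≠ 0 := ofReal_ne_zero.2 hρ
  have key : ∀ T W : ℂ, Sx Ψ x v ρ (((r / ρ : ℝ) : ℂ) • ((T - x - Ψ W) / r, (W - v) / r)) = (T, W) := by
    intro T W
    have h2 : (v : ℂ) + (ρ : ℂ) * (((r / ρ : ℝ) : ℂ) * ((W - v) / r)) = W := by
      push_cast
      field_simp
      ring
    have h1 : (ρ : ℂ) * (((r / ρ : ℝ) : ℂ) * ((T - x - Ψ W) / r)) = T - x - Ψ W := by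
      push_cast
      field_simp
    show (((x : ℂ) + (ρ : ℂ) * (((r / ρ : ℝ) : ℂ) * ((T - x - Ψ W) / r)) +
      Ψ ((v : ℂ) + (ρ : ℂ) * (((r / ρ : ℝ) : ℂ) * ((W - v) / r)))),
      (v : ℂ) + (ρ : ℂ) * (((r / ρ : ℝ) : ℂ) * ((W - v) / r))) = (T, W)
    rw [h2, h1]
    refine Prod.ext ?_ rfl
    show (x : ℂ) + (T - x - Ψ W) + Ψ W = T
    ring
  exact key (kpt R c₀ σ y u r z).1 (kpt R c₀ σ y u r z).2

theorem Zt_close {M : Set (ℂ × ℂ)} {b m : ℝ} {Ψ : ℂ → ℂ} {ρ₁ ε c₁ u : ℝ} {P₀ : ℂ} {c k : ℝ}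
    (hC : Cmp M b m Ψ u ρ₁ P₀ c k c₁ ε) {c₀ σ y r x v : ℝ} (hr : 0 < r) {z : ℂ × ℂ}
    (h1 : r * |z.2.re| < ρ₁) (h2 : 0 < z.2.im) (h3 : r * z.2.im < ρ₁)
    (h4 : c₁ * |z.2.re| ≤ z.2.im) :
    ‖Zt Ψ P₀.im c₀ σ y u r x v z - Tl (σ - k) z‖ ≤
      (|c₀ - c| + ε) * ‖z.2‖ + |y - P₀.re - x| / r + |u - v| / r := by
  have hr' : (r : ℂ) ≠ 0 := ofReal_ne_zero.2 hr.ne'
  have e1 : ((u : ℂ) + r * z.2).re = u + r * z.2.re := by simp
  have e2 : ((u : ℂ) + r * z.2).im = r * z.2.im := by simp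
  have h5 := hC.nt ((u : ℂ) + r * z.2)
    (by rw [e1, add_sub_cancel_left, abs_mul, abs_of_pos hr]; exact h1)
    (by rw [e2]; positivity) (by rw [e2]; exact h3)
    (by rw [e1, e2, add_sub_cancel_left, abs_mul, abs_of_pos hr]; nlinarith)
  rw [add_sub_cancel_left, norm_mul, norm_real, Real.norm_of_nonneg hr.le] at h5
  set W : ℂ := (u : ℂ) + r * z.2 with hW
  set E : ℂ := Ψ W - P₀ - (I * c + k) * (r * z.2) with hE
  have hk : kpt P₀.im c₀ σ y u r z =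
      ((y : ℂ) + (P₀.im : ℂ) * I + r * (z.1 + (I * c₀ + σ) * z.2), W) := rfl
  have hP : (P₀ : ℂ) = (P₀.re : ℂ) + (P₀.im : ℂ) * I := (Complex.re_add_im P₀).symm
  have hfst : (Zt Ψ P₀.im c₀ σ y u r x v z - Tl (σ - k) z).1 =
      I * ((c₀ - c : ℝ) : ℂ) * z.2 - E / r + ((y - P₀.re - x : ℝ) : ℂ) / r := by
    show (((kpt P₀.im c₀ σ y u r z).1 - x - Ψ (kpt P₀.im c₀ σ y u r z).2) / r -
      (z.1 + ((σ - k : ℝ) : ℂ) * z.2)) = _
    rw [hk, hE]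
    simp only []
    push_cast
    have hP2 : (P₀.im : ℂ) * I = P₀ - (P₀.re : ℂ) := by rw [eq_sub_iff_add_eq, add_comm]; exact hP.symm
    rw [hP2]
    field_simp
    ring
  have hsnd : (Zt Ψ P₀.im c₀ σ y u r x v z - Tl (σ - k) z).2 = ((u - v : ℝ) : ℂ) / r := by
    show (((kpt P₀.im c₀ σ y u r z).2 - v) / r - z.2) = _
    rw [hk, hW]
    simp only []
    push_cast
    field_simp
    ring
  have n1 : ‖((y - P₀.re - x : ℝ) : ℂ) / r‖ = |y - P₀.re - x| / r := by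
    rw [norm_div, norm_real, norm_real, Real.norm_eq_abs, Real.norm_of_nonneg hr.le]
  have n2 : ‖((u - v : ℝ) : ℂ) / r‖ = |u - v| / r := by
    rw [norm_div, norm_real, norm_real, Real.norm_eq_abs, Real.norm_of_nonneg hr.le]
  have n3 : ‖E / r‖ ≤ ε * ‖z.2‖ := by
    rw [norm_div, norm_real, Real.norm_of_nonneg hr.le, div_le_iff₀ hr]
    linarith
  have n4 : ‖I * ((c₀ - c : ℝ) : ℂ) * z.2‖ = |c₀ - c| * ‖z.2‖ := by
    rw [norm_mul, norm_mul, norm_I, one_mul, norm_real, Real.norm_eq_abs]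
  have p1 : 0 ≤ |y - P₀.re - x| / r := by positivity
  have p2 : 0 ≤ |u - v| / r := by positivity
  have p3 : 0 ≤ |c₀ - c| * ‖z.2‖ := by positivity
  have p4 : 0 ≤ ε * ‖z.2‖ := (norm_nonneg _).trans n3
  rw [Prod.norm_def, hfst, hsnd, max_le_iff]
  constructor
  · refine (norm_add_le _ _).trans ?_
    refine (add_le_add_left (norm_sub_le _ _) _).trans ?_
    rw [n1, n4]
    linarith
  · rw [n2]
    linarith

/-- uniform closeness on compacts -/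
theorem back_close {M : Set (ℂ × ℂ)} {b m : ℝ} {Ψ : ℂ → ℂ} {A : Set ℝ} {P : ℝ → ℂ} {c k : ℝ → ℝ}
    (hU : CmpU M b m Ψ A P c k) {u₀ : ℝ} (hu₀ : u₀ ∈ A) (σ : ℝ) {K : Set (ℂ × ℂ)}
    (hK : IsCompact K) (hK0 : ∀ z ∈ K, 0 < z.2.im) {η : ℝ} (hη : 0 < η) :
    ∃ d > 0, ∃ r₀ > 0, ∀ u ∈ A, |u - u₀| < d → ∀ y x v r : ℝ, 0 < r → r < r₀ →
      |y - (P u).re - x| ≤ d * r → |u - v| ≤ d * r → ∀ z ∈ K,
      ‖Zt Ψ (P u).im (c u₀) σ y u r x v z - Tl (σ - k u₀) z‖ ≤ η := by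
  obtain ⟨-, hc, hk⟩ := cmpU_cont hU
  -- bounds on K
  obtain ⟨B, hB0, hB⟩ : ∃ B > 0, ∀ z ∈ K, ‖z.2‖ ≤ B := by
    obtain ⟨B, hB⟩ := hK.exists_bound_of_continuousOn (f := fun z : ℂ × ℂ => z.2)
      continuous_snd.continuousOn
    exact ⟨|B| + 1, by positivity, fun z hz => by linarith [hB z hz, le_abs_self B]⟩
  obtain ⟨l, hl0, hl⟩ : ∃ l > 0, ∀ z ∈ K, l ≤ z.2.im := by
    rcases K.eq_empty_or_nonempty with h | h
    · exact ⟨1, one_pos, fun z hz => by rw [h] at hz; exact absurd hz (notMem_empty z)⟩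
    · obtain ⟨z₁, hz₁, h1⟩ := hK.exists_isMinOn h
        (f := fun z : ℂ × ℂ => z.2.im) (by fun_prop)
      exact ⟨z₁.2.im, hK0 z₁ hz₁, fun z hz => h1 hz⟩
  have hη8 : 0 < η / (8 * (B + 1)) := by positivity
  obtain ⟨ρ₁, hρ₁, hcmp⟩ := hU.cmp (l / (B + 1)) (by positivity) (η / (8 * (B + 1))) hη8
  rw [Metric.continuousOn_iff] at hc hk
  obtain ⟨d₁, hd₁, h1⟩ := hc u₀ hu₀ _ hη8
  obtain ⟨d₂, hd₂, h2⟩ := hk u₀ hu₀ _ hη8
  refine ⟨min (min d₁ d₂) (η / 8), by positivity, ρ₁ / (B + 1), by positivity, ?_⟩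
  intro u hu hud y x v r hr hrr hy hv z hz
  have g1 : |u - u₀| < d₁ := hud.trans_le ((min_le_left _ _).trans (min_le_left _ _))
  have g2 : |u - u₀| < d₂ := hud.trans_le ((min_le_left _ _).trans (min_le_right _ _))
  have g3 : min (min d₁ d₂) (η / 8) ≤ η / 8 := min_le_right _ _
  have c1 := h1 u hu (by rw [Real.dist_eq]; exact g1)
  have c2 := h2 u hu (by rw [Real.dist_eq]; exact g2)
  rw [Real.dist_eq] at c1 c2
  have hzB := hB z hz
  have hzl := hl z hz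
  have hre := (Complex.abs_re_le_norm z.2).trans hzB
  have him := (le_abs_self z.2.im).trans ((Complex.abs_im_le_norm z.2).trans hzB)
  have hrB : r * (B + 1) < ρ₁ := by rwa [lt_div_iff₀ (by positivity)] at hrr
  have k1 : r * |z.2.re| ≤ r * B := mul_le_mul_of_nonneg_left hre hr.le
  have k2 : r * z.2.im ≤ r * B := mul_le_mul_of_nonneg_left him hr.le
  have k3 : l / (B + 1) * |z.2.re| ≤ z.2.im := by
    have : l / (B + 1) * |z.2.re| ≤ l / (B + 1) * (B + 1) :=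
      mul_le_mul_of_nonneg_left (by linarith) (by positivity)
    have h3 : l / (B + 1) * (B + 1) = l := by field_simp
    linarith
  have key := Zt_close (hcmp u hu) (c₀ := c u₀) (σ := σ) (y := y) (x := x) (v := v) hr
    (z := z) (by linarith) (hl0.trans_le hzl) (by linarith) k3
  have t1 : ‖Tl (σ - k u) z - Tl (σ - k u₀) z‖ ≤ |k u - k u₀| * ‖z.2‖ := by
    have e : Tl (σ - k u) z - Tl (σ - k u₀) z = (-((k u - k u₀ : ℝ) : ℂ) * z.2, 0) := by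
      unfold Tl
      ext
      · simp only [Prod.fst_sub]
        push_cast
        ring
      · simp
    rw [e, Prod.norm_def, norm_zero, max_eq_left (norm_nonneg _), norm_mul, norm_neg, norm_real,
      Real.norm_eq_abs]
  have t2 : ‖Zt Ψ (P u).im (c u₀) σ y u r x v z - Tl (σ - k u₀) z‖ ≤
      ‖Zt Ψ (P u).im (c u₀) σ y u r x v z - Tl (σ - k u) z‖ + ‖Tl (σ - k u) z - Tl (σ - k u₀) z‖ := by
    have := norm_add_le (Zt Ψ (P u).im (c u₀) σ y u r x v z - Tl (σ - k u) z)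
      (Tl (σ - k u) z - Tl (σ - k u₀) z)
    rwa [sub_add_sub_cancel] at this
  have s1 : |y - (P u).re - x| / r ≤ η / 8 := by
    rw [div_le_iff₀ hr]
    exact hy.trans (mul_le_mul_of_nonneg_right g3 hr.le)
  have s2 : |u - v| / r ≤ η / 8 := by
    rw [div_le_iff₀ hr]
    exact hv.trans (mul_le_mul_of_nonneg_right g3 hr.le)
  have q1 : η / (8 * (B + 1)) * B ≤ η / 8 := by
    rw [div_mul_eq_mul_div, div_le_div_iff₀ (by positivity) (by positivity)]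
    nlinarith
  have q0 : 0 ≤ ‖z.2‖ := norm_nonneg _
  have q2 : (|c u₀ - c u| + η / (8 * (B + 1))) * ‖z.2‖ ≤ 2 * (η / 8) := by
    rw [abs_sub_comm] at c1
    have : (|c u₀ - c u| + η / (8 * (B + 1))) * ‖z.2‖ ≤
        (η / (8 * (B + 1)) + η / (8 * (B + 1))) * B :=
      mul_le_mul (by linarith) hzB q0 (by positivity)
    linarith
  have q3 : |k u - k u₀| * ‖z.2‖ ≤ η / 8 := by
    have : |k u - k u₀| * ‖z.2‖ ≤ η / (8 * (B + 1)) * B :=
      mul_le_mul c2.le hzB q0 hη8.le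
    linarith
  linarith

/-- **from the blown-up wide cone to one compact of the straight wide tube** -/
theorem back {M : Set (ℂ × ℂ)} {b m : ℝ} {Ψ : ℂ → ℂ} {A : Set ℝ} {P : ℝ → ℂ} {c k : ℝ → ℝ}
    (hU : CmpU M b m Ψ A P c k) {u₀ : ℝ} (hu₀ : u₀ ∈ A) {σ s : ℝ} {K : Set (ℂ × ℂ)}
    (hK : IsCompact K) (hKs : K ⊆ A5.Wd (s - σ)) :
    ∃ δ < s - k u₀, ∃ W : Set (ℂ × ℂ), IsCompact W ∧ W ⊆ Wd δ ∧ ∃ d > 0, ∃ r₀ > 0,
      ∀ u ∈ A, |u - u₀| < d → ∀ y x v r : ℝ, 0 < r → r < r₀ →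
      |y - (P u).re - x| ≤ d * r → |u - v| ≤ d * r → ∀ z ∈ K,
      Zt Ψ (P u).im (c u₀) σ y u r x v z ∈ W := by
  set K' : Set (ℂ × ℂ) := Tl (σ - k u₀) '' K with hK'
  have hK'c : IsCompact K' := hK.image (continuous_Tl _)
  have hTi : ∀ z : ℂ × ℂ, (Tl (σ - k u₀) z).1.im = z.1.im + (σ - k u₀) * z.2.im := by
    intro z; simp [Tl]
  have hK's : ∀ z ∈ K', 0 < z.2.im ∧ z.1.im < (s - k u₀) * z.2.im := by
    rintro _ ⟨z, hz, rfl⟩
    obtain ⟨h1, h2⟩ := hKs hz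
    refine ⟨h1, ?_⟩
    rw [hTi]
    show _ < (s - k u₀) * z.2.im
    have h3 : (s - k u₀) * z.2.im = (s - σ) * z.2.im + (σ - k u₀) * z.2.im := by ring
    linarith
  -- the slope
  obtain ⟨δ, hδ, hKδ⟩ : ∃ δ < s - k u₀, K' ⊆ Wd δ := by
    rcases K'.eq_empty_or_nonempty with h | h
    · exact ⟨s - k u₀ - 1, by linarith, by rw [h]; exact empty_subset _⟩
    · obtain ⟨z₁, hz₁, h1⟩ := hK'c.exists_isMinOn h
        (f := fun z : ℂ × ℂ => (s - k u₀) * z.2.im - z.1.im) (by fun_prop)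
      obtain ⟨B, hB⟩ := hK'c.exists_bound_of_continuousOn (f := fun z : ℂ × ℂ => z.2)
        continuous_snd.continuousOn
      have hB0 : 0 ≤ B := (norm_nonneg _).trans (hB z₁ hz₁)
      set g₀ : ℝ := (s - k u₀) * z₁.2.im - z₁.1.im with hg₀
      have hg : 0 < g₀ := by have := (hK's z₁ hz₁).2; linarith
      refine ⟨s - k u₀ - g₀ / (2 * (B + 1)), by linarith [div_pos hg (by positivity : 0 < 2 * (B + 1))],
        fun z hz => ⟨(hK's z hz).1, ?_⟩⟩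
      have h2 : g₀ ≤ (s - k u₀) * z.2.im - z.1.im := h1 hz
      have h3 : z.2.im ≤ B := (le_abs_self _).trans ((Complex.abs_im_le_norm _).trans (hB z hz))
      have h4 : g₀ / (2 * (B + 1)) * z.2.im ≤ g₀ / (2 * (B + 1)) * (B + 1) :=
        mul_le_mul_of_nonneg_left (by linarith) (by positivity)
      have h5 : g₀ / (2 * (B + 1)) * (B + 1) = g₀ / 2 := by field_simp
      have h6 : (s - k u₀ - g₀ / (2 * (B + 1))) * z.2.im =
        (s - k u₀) * z.2.im - g₀ / (2 * (B + 1)) * z.2.im := by ring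
      linarith
  have hO : IsOpen (Wd δ) :=
    (isOpen_lt (f := fun _ : ℂ × ℂ => (0 : ℝ)) (by fun_prop) (by fun_prop)).inter
      (isOpen_lt (f := fun z : ℂ × ℂ => z.1.im) (by fun_prop) (by fun_prop))
  obtain ⟨η, hη, hηs⟩ := hK'c.exists_cthickening_subset_open hO hKδ
  obtain ⟨d, hd, r₀, hr₀, h⟩ := back_close hU hu₀ σ hK (fun z hz => (hKs hz).1) hη
  refine ⟨δ, hδ, cthickening η K', hK'c.cthickening, hηs, d, hd, r₀, hr₀, ?_⟩
  intro u hu hud y x v r hr hrr hy hv z hz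
  exact mem_cthickening_of_dist_le _ _ _ _ (mem_image_of_mem _ hz)
    (by rw [dist_eq_norm]; exact h u hu hud y x v r hr hrr hy hv z hz)

end Vale.Agent.P097.H560
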