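import Vale.Agent.P097.H560.Full
import Vale.Agent.P097.H226.W.Defs

/-!
# P097 : case [c], block (W): the world in straight coordinates at one point (geometric half)
-/

set_option linter.all false

open Complex Metric Filter Topology Set
open scoped ComplexConjugate

namespace Vale.Agent.P097.H560

open Vale.Agent.P097.H85 Vale.Agent.P097.H929 Vale.Agent.P097.TC Vale.Agent.P097.H226.W

/-- straight coordinates at `(y, u)`, unit = `ρ` -/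
noncomputable def Sm (P : ℝ → ℂ) (Ψ : ℂ → ℂ) (y u ρ : ℝ) (z : ℂ × ℂ) : ℂ × ℂ :=
  ((((y - (P u).re : ℝ) : ℂ) + (ρ : ℂ) * z.1 + Ψ ((u : ℂ) + (ρ : ℂ) * z.2)),
    (u : ℂ) + (ρ : ℂ) * z.2)

/-- **the straight coordinates stay in the domains** -/
theorem Sm_mem {Mj Mk : Set (ℂ × ℂ)} {b m : ℝ} {Ψ : ℂ → ℂ} {A : Set ℝ} {P : ℝ → ℂ} {c k : ℝ → ℝ}
    (hMk : RH b Mk) (hj : CmpU Mj b m Ψ A P c k) (hk : CmpU Mk b m Ψ A P c k) (hbm : b < m)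
    {y₀ u₀ s' : ℝ} (hR : RegB Mk b A P c y₀ u₀ s') {γ : ℝ} (hγ : 0 < γ) :
    ∃ d > 0, ∃ ρ₀ > 0, ∀ u ∈ A, |u - u₀| < d → ∀ y : ℝ, |y - y₀| < d → ∀ ρ : ℝ, 0 < ρ → ρ ≤ ρ₀ →
      (∀ z ∈ Bx 1, 0 < z.2.im → DifferentiableAt ℂ (Sm P Ψ y u ρ) z ∧ (Sm P Ψ y u ρ z).2.im = ρ * z.2.im) ∧
      (∀ δ : ℝ, δ ≤ s' - k u - γ → ∀ z ∈ Bx 1 ∩ Wd δ, Sm P Ψ y u ρ z ∈ Mk) ∧
      ∀ z ∈ Bx 1 ∩ Qu, Sm P Ψ y u ρ z ∈ Mj ∩ Mk := by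
  obtain ⟨d, hd, h1⟩ := wide_unif hMk hk hbm hR hγ
  obtain ⟨ρ₁, hρ₁, h2⟩ := hj.cmp 1 one_pos 1 one_pos
  obtain ⟨ρ₂, hρ₂, h3⟩ := hk.cmp 1 one_pos 1 one_pos
  obtain ⟨ρ₀, hρ₀, g1, g2, g3, g4⟩ : ∃ ρ₀ > 0, ρ₀ < ρ₁ ∧ ρ₀ < ρ₂ ∧ ρ₀ < d ∧ ρ₀ < m - b := by
    have : 0 < m - b := by linarith
    refine ⟨min (min (ρ₁ / 2) (ρ₂ / 2)) (min (d / 2) ((m - b) / 2)), by positivity, ?_, ?_, ?_, ?_⟩
    · have := (min_le_left (min (ρ₁ / 2) (ρ₂ / 2)) (min (d / 2) ((m - b) / 2))).trans (min_le_left _ _)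
      linarith
    · have := (min_le_left (min (ρ₁ / 2) (ρ₂ / 2)) (min (d / 2) ((m - b) / 2))).trans (min_le_right _ _)
      linarith
    · have := (min_le_right (min (ρ₁ / 2) (ρ₂ / 2)) (min (d / 2) ((m - b) / 2))).trans (min_le_left _ _)
      linarith
    · have := (min_le_right (min (ρ₁ / 2) (ρ₂ / 2)) (min (d / 2) ((m - b) / 2))).trans (min_le_right _ _)
      linarith
  refine ⟨d, hd, ρ₀, hρ₀, ?_⟩
  intro u hu hud y hyd ρ hρ hρρ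
  have e2 : ∀ z : ℂ × ℂ, ((u : ℂ) + (ρ : ℂ) * z.2).re = u + ρ * z.2.re := fun z => by simp
  have e3 : ∀ z : ℂ × ℂ, ((u : ℂ) + (ρ : ℂ) * z.2).im = ρ * z.2.im := fun z => by simp
  have hlt : ∀ {x : ℝ}, |x| < 1 → ρ * |x| < ρ₀ := by
    intro x hx
    have : ρ * |x| < ρ * 1 := mul_lt_mul_of_pos_left hx hρ
    linarith
  have b1 : ∀ z ∈ Bx 1, |((u : ℂ) + (ρ : ℂ) * z.2).re - u| < ρ₀ := by
    intro z hz
    rw [e2, add_sub_cancel_left, abs_mul, abs_of_pos hρ]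
    exact hlt hz.2.2.1
  have b2 : ∀ z : ℂ × ℂ, 0 < z.2.im → 0 < ((u : ℂ) + (ρ : ℂ) * z.2).im := by
    intro z hz
    rw [e3]; positivity
  have b3 : ∀ z ∈ Bx 1, ((u : ℂ) + (ρ : ℂ) * z.2).im < ρ₀ := by
    intro z hz
    rw [e3]
    have := hlt hz.2.2.2
    have := le_abs_self z.2.im
    nlinarith
  have t1 : ∀ z : ℂ × ℂ, (Sm P Ψ y u ρ z).1.im = ρ * z.1.im + (Ψ ((u : ℂ) + (ρ : ℂ) * z.2)).im := by
    intro z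
    show ((((y - (P u).re : ℝ) : ℂ) + (ρ : ℂ) * z.1 + Ψ ((u : ℂ) + (ρ : ℂ) * z.2))).im = _
    rw [add_im, add_im, ofReal_im, zero_add]
    simp
  have t2 : ∀ z : ℂ × ℂ, ((Sm P Ψ y u ρ z).1 - Ψ ((u : ℂ) + (ρ : ℂ) * z.2)).re =
      y - (P u).re + ρ * z.1.re := by
    intro z
    show ((((y - (P u).re : ℝ) : ℂ) + (ρ : ℂ) * z.1 + Ψ ((u : ℂ) + (ρ : ℂ) * z.2)) -
      Ψ ((u : ℂ) + (ρ : ℂ) * z.2)).re = _
    rw [add_sub_cancel_right, add_re, ofReal_re]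
    simp
  have t3 : ∀ z ∈ Bx 1, 0 < z.2.im → b < (Sm P Ψ y u ρ z).1.im := by
    intro z hz hz0
    rw [t1]
    have h4 := (h3 u hu).bdd _ ((b1 z hz).trans g2) (b2 z hz0) ((b3 z hz).trans g2)
    have h5 := hlt hz.2.1
    have h6 := neg_abs_le z.1.im
    nlinarith
  refine ⟨?_, ?_, ?_⟩
  · intro z hz hz0
    refine ⟨?_, e3 z⟩
    have hΨ : DifferentiableAt ℂ Ψ ((u : ℂ) + (ρ : ℂ) * z.2) :=
      ((h3 u hu).hol).differentiableAt ((isOpen_box u ρ₂).mem_nhds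
        ⟨(b1 z hz).trans g2, b2 z hz0, (b3 z hz).trans g2⟩)
    have hl : DifferentiableAt ℂ (fun z : ℂ × ℂ => (u : ℂ) + (ρ : ℂ) * z.2) z := by fun_prop
    have h5 : DifferentiableAt ℂ (fun z : ℂ × ℂ => Ψ ((u : ℂ) + (ρ : ℂ) * z.2)) z :=
      DifferentiableAt.comp z (f := fun z : ℂ × ℂ => (u : ℂ) + (ρ : ℂ) * z.2) hΨ hl
    have h6 : DifferentiableAt ℂ (fun z : ℂ × ℂ => ((y - (P u).re : ℝ) : ℂ) + (ρ : ℂ) * z.1) z := by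
      fun_prop
    exact (h6.add h5).prodMk hl
  · rintro δ hδ z ⟨hz, hz0, hz1⟩
    apply h1 u hu hud y hyd
    · exact (b1 z hz).trans g3
    · exact b2 z hz0
    · exact (b3 z hz).trans g3
    · show |((Sm P Ψ y u ρ z).1 - Ψ ((u : ℂ) + (ρ : ℂ) * z.2)).re - (y - (P u).re)| < d
      rw [t2, add_sub_cancel_left, abs_mul, abs_of_pos hρ]
      exact (hlt hz.1).trans g3
    · exact t3 z hz hz0
    · show (Sm P Ψ y u ρ z).1.im < (Ψ ((u : ℂ) + (ρ : ℂ) * z.2)).im +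
        (s' - k u - γ) * ((u : ℂ) + (ρ : ℂ) * z.2).im
      rw [t1, e3]
      have h4 : δ * z.2.im ≤ (s' - k u - γ) * z.2.im := mul_le_mul_of_nonneg_right hδ hz0.le
      have h5 : ρ * z.1.im < ρ * ((s' - k u - γ) * z.2.im) :=
        mul_lt_mul_of_pos_left (lt_of_lt_of_le hz1 h4) hρ
      have h6 : ρ * ((s' - k u - γ) * z.2.im) = (s' - k u - γ) * (ρ * z.2.im) := by ring
      linarith
  · rintro z ⟨hz, hz1, hz0⟩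
    have h7 : (Sm P Ψ y u ρ z).1.im < (Ψ ((u : ℂ) + (ρ : ℂ) * z.2)).im := by
      rw [t1]
      have : ρ * z.1.im < 0 := mul_neg_of_pos_of_neg hρ hz1
      linarith
    exact ⟨(h2 u hu).base _ _ ((b1 z hz).trans g1) (b2 z hz0) ((b3 z hz).trans g1)
        (t3 z hz hz0) h7,
      (h3 u hu).base _ _ ((b1 z hz).trans g2) (b2 z hz0) ((b3 z hz).trans g2)
        (t3 z hz hz0) h7⟩

/-- **W-INST, geometric half** : the world in straight coordinates -/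
theorem sw_of {Λ H : ℝ} {F q : ℂ → ℂ} {Mj Mk : Set (ℂ × ℂ)} {b m : ℝ} {Ψ : ℂ → ℂ} {A : Set ℝ}
    {P : ℝ → ℂ} {c k : ℝ → ℝ} {al p th : ℂ × ℂ → ℂ} (cv : Cv Λ H F q) (gr : Grw H F q)
    (hMj : IsOpen Mj) (hMk : RH b Mk) (hj : CmpU Mj b m Ψ A P c k) (hk : CmpU Mk b m Ψ A P c k)
    (hbm : b < m) {y₀ u₀ s' : ℝ} (hR : RegB Mk b A P c y₀ u₀ s')
    (dal : DifferentiableOn ℂ al Mk) (dp : DifferentiableOn ℂ p Mk)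
    (dth : DifferentiableOn ℂ th (Mj ∩ Mk)) (mem : ∀ z ∈ Mj ∩ Mk, th z ∈ Sb H)
    (inc : ∀ z ∈ Mj ∩ Mk, Mi F q (al z) (p z) (th z) = 0)
    (smp : ∀ z ∈ Mj ∩ Mk, 0 < z.2.im → deriv (Mi F q (al z) (p z)) (th z) ≠ 0)
    {γ : ℝ} (hγ : 0 < γ) :
    ∃ d > 0, ∃ ρ₀ > 0, ∀ u ∈ A, |u - u₀| < d → ∀ y : ℝ, |y - y₀| < d → ∀ ρ : ℝ, 0 < ρ → ρ ≤ ρ₀ →
      ∀ δ : ℝ, 0 < δ → δ ≤ s' - k u - γ →
      SW Λ H F q δ 1 (al ∘ Sm P Ψ y u ρ) (p ∘ Sm P Ψ y u ρ) (th ∘ Sm P Ψ y u ρ) := by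
  obtain ⟨d, hd, ρ₀, hρ₀, h⟩ := Sm_mem hMk hj hk hbm hR hγ
  refine ⟨d, hd, ρ₀, hρ₀, ?_⟩
  intro u hu hud y hyd ρ hρ hρρ δ hδ hδs
  obtain ⟨h1, h2, h3⟩ := h u hu hud y hyd ρ hρ hρρ
  have hQ : Bx 1 ∩ Qu ⊆ Bx 1 ∩ Wd δ := by
    rintro z ⟨hz, hz1, hz0⟩
    refine ⟨hz, hz0, ?_⟩
    have := mul_pos hδ hz0
    linarith
  have hal : DifferentiableOn ℂ (al ∘ Sm P Ψ y u ρ) (Bx 1 ∩ Wd δ) := by
    rintro z ⟨hz, hz0, hz1⟩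
    exact (DifferentiableAt.comp z (dal.differentiableAt (hMk.dn.op.mem_nhds
      (h2 δ hδs z ⟨hz, hz0, hz1⟩))) (h1 z hz hz0).1).differentiableWithinAt
  have hp : DifferentiableOn ℂ (p ∘ Sm P Ψ y u ρ) (Bx 1 ∩ Wd δ) := by
    rintro z ⟨hz, hz0, hz1⟩
    exact (DifferentiableAt.comp z (dp.differentiableAt (hMk.dn.op.mem_nhds
      (h2 δ hδs z ⟨hz, hz0, hz1⟩))) (h1 z hz hz0).1).differentiableWithinAt
  refine ⟨⟨cv, gr, hal.mono hQ, hp.mono hQ, ?_, fun z hz => mem _ (h3 z hz),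
    fun z hz => inc _ (h3 z hz), ?_⟩, hδ, hal, hp⟩
  · rintro z ⟨hz, hz1, hz0⟩
    exact (DifferentiableAt.comp z (dth.differentiableAt ((hMj.inter hMk.dn.op).mem_nhds
      (h3 z ⟨hz, hz1, hz0⟩))) (h1 z hz hz0).1).differentiableWithinAt
  · rintro z ⟨hz, hz1, hz0⟩
    refine smp _ (h3 z ⟨hz, hz1, hz0⟩) ?_
    rw [(h1 z hz hz0).2]
    exact mul_pos hρ hz0

end Vale.Agent.P097.H560
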